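import Crest.Agent.R172.HM.Defs

/-! R172/HM/Conj (architect helper44) -/

set_option autoImplicit false
set_option linter.unusedVariables false
open Matrix Sum Module Crest.AlgebraR.SpinSaturation Crest.Agent.R172.W

noncomputable section
namespace Crest.Agent.R172.HM
variable {n : ℕ}

/-- `A N^k - N^k A = k N^k`; if no power vanishes, `Z ↦ A Z - Z A` has infinitely many eigenvalues (`Module.End.finite_hasEigenvalue`). -/
theorem nil_of_comm {E : Type*} [AddCommGroup E] [Module ℂ E] [FiniteDimensional ℂ E] (A N : Module.End ℂ E)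
    (h : A * N - N * A = N) : IsNilpotent N := by
  have hk : ∀ k : ℕ, A * N ^ k - N ^ k * A = (k : ℂ) • N ^ k := by
    intro k
    induction k with
    | zero => simp
    | succ k ih =>
      have e : A * N ^ (k + 1) - N ^ (k + 1) * A = (A * N ^ k - N ^ k * A) * N + N ^ k * (A * N - N * A) := by
        rw [pow_succ]; noncomm_ring
      rw [e, ih, h, Nat.cast_succ, add_smul, one_smul, smul_mul_assoc, pow_succ]
  by_contra hN
  have hne : ∀ k : ℕ, N ^ k ≠ 0 := fun k hk0 => hN ⟨k, hk0⟩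
  let D : Module.End ℂ (Module.End ℂ E) := LinearMap.mulLeft ℂ A - LinearMap.mulRight ℂ A
  have hev : ∀ k : ℕ, D.HasEigenvalue (k : ℂ) := fun k =>
    Module.End.hasEigenvalue_of_hasEigenvector (x := N ^ k)
      ⟨Module.End.mem_eigenspace_iff.2 (by simpa [D] using hk k), hne k⟩
  exact Set.infinite_of_injective_forall_mem (f := fun k : ℕ => (k : ℂ)) Nat.cast_injective hev D.finite_hasEigenvalue

theorem conja_swap_ne (p : L n) : p.swap ≠ p := by
  rcases p with p | p <;> simp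

/-- `⁅X p p, X p q⁆ = X p q` unless `q = p.swap`, when `X p q = 0` (`X_comm`, `X_skew`). -/
theorem HWR.nil {a : Wt n} (H : HWR n a) {p q : L n} (h : p ≠ q) : IsNilpotent (H.ρ (X p q)) := by
  by_cases hq : p = q.swap
  · have h0 : X p q = 0 := by
      apply Subtype.ext
      change Xm p q = 0
      subst hq
      simp [Xm]
    rw [h0, map_zero]
    exact IsNilpotent.zero
  · refine nil_of_comm (H.ρ (X p p)) _ ?_
    rw [← H.lie, X_comm, if_pos rfl, if_neg h, if_neg hq, if_neg (conja_swap_ne p), sub_zero, sub_zero, sub_zero]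

theorem Xm_sq {p q : L n} (h : p ≠ q) : Xm p q * Xm p q = 0 := by
  have e1 : ¬ q = p := fun e => h e.symm
  have e2 : ¬ q = q.swap := fun e => conja_swap_ne q e.symm
  have e3 : ¬ p.swap = p := conja_swap_ne p
  have e4 : ¬ p.swap = q.swap := fun e => h (liea_swap_inj.1 e)
  simp only [Xm, mul_sub, sub_mul, liea_mul, if_neg e1, if_neg e2, if_neg e3, if_neg e4, sub_self]

theorem conjb_one {A : Type*} [Ring A] [Algebra ℂ A] (N Z1 Z2 : A)
    (h2 : N * Z1 - Z1 * N = Z2) (h3 : N * Z2 = Z2 * N) (m : ℕ) :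
    N ^ (m + 1) * Z1 = Z1 * N ^ (m + 1) + ((m : ℂ) + 1) • (Z2 * N ^ m) := by
  have e : N * Z1 = Z1 * N + Z2 := by rw [← h2]; abel
  induction m with
  | zero => simp [e]
  | succ m ih =>
    have : N ^ (m + 1 + 1) * Z1 = N * (N ^ (m + 1) * Z1) := by rw [pow_succ' N (m + 1), mul_assoc]
    rw [this, ih, mul_add, mul_smul_comm, ← mul_assoc, ← mul_assoc, e, h3, add_mul, mul_assoc, mul_assoc,
      ← pow_succ', ← pow_succ']
    push_cast
    module

theorem conjb_two {A : Type*} [Ring A] [Algebra ℂ A] (N Z Z1 Z2 : A) (h1 : N * Z - Z * N = Z1)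
    (h2 : N * Z1 - Z1 * N = Z2) (h3 : N * Z2 = Z2 * N) (m : ℕ) :
    N ^ (m + 2) * Z = Z * N ^ (m + 2) + ((m : ℂ) + 2) • (Z1 * N ^ (m + 1)) +
      (((m : ℂ) + 2) * ((m : ℂ) + 1) / 2) • (Z2 * N ^ m) := by
  have e : N * Z = Z * N + Z1 := by rw [← h1]; abel
  have e1 : N * Z1 = Z1 * N + Z2 := by rw [← h2]; abel
  induction m with
  | zero =>
    have : N ^ (0 + 2) * Z = N * (N * Z) := by rw [zero_add, pow_two, mul_assoc]
    rw [this, e, mul_add, ← mul_assoc, e, e1, add_mul, mul_assoc, ← pow_two]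
    simp only [zero_add, pow_one, pow_zero, mul_one, Nat.cast_zero]
    module
  | succ m ih =>
    have : N ^ (m + 1 + 2) * Z = N * (N ^ (m + 2) * Z) := by rw [pow_succ' N (m + 2), mul_assoc]
    rw [this, ih, mul_add, mul_add, mul_smul_comm, mul_smul_comm, ← mul_assoc, ← mul_assoc, ← mul_assoc, e, e1, h3,
      add_mul, add_mul, mul_assoc, mul_assoc, mul_assoc, ← pow_succ', ← pow_succ', ← pow_succ']
    push_cast
    module

/-- `exp (L_N) = exp (R_N) exp (L_N - R_N)` in `End (End E)` (`IsNilpotent.exp_add_of_commute`, `exp_eq_sum`, `LinearMap.pow_mulLeft/Right`),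
or directly: `N^k Z = Z N^k + k Z1 N^(k-1) + k(k-1)/2 Z2 N^(k-2)`. -/
theorem exp_conj {A : Type*} [Ring A] [Algebra ℂ A] [Module ℚ A] (N Z Z1 Z2 : A) (hN : IsNilpotent N) (h1 : N * Z - Z * N = Z1)
    (h2 : N * Z1 - Z1 * N = Z2) (h3 : N * Z2 = Z2 * N) :
    IsNilpotent.exp N * Z = (Z + Z1 + (1 / 2 : ℂ) • Z2) * IsNilpotent.exp N := by
  obtain ⟨k, hk⟩ := hN
  have hk1 : N ^ (k + 1) = 0 := by rw [pow_succ, hk, zero_mul]
  have hk2 : N ^ (k + 2) = 0 := by rw [pow_succ, hk1, zero_mul]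
  have e : N * Z = Z * N + Z1 := by rw [← h1]; abel
  have hs : ∀ m : ℕ, N ^ m = 0 → IsNilpotent.exp N = ∑ i ∈ Finset.range m, ((i.factorial : ℂ))⁻¹ • N ^ i := by
    intro m hm
    rw [IsNilpotent.exp_eq_sum hm]
    refine Finset.sum_congr rfl fun i _ => ?_
    rw [← Rat.cast_smul_eq_qsmul ℂ]
    simp
  have key : ∀ m : ℕ, (∑ i ∈ Finset.range (m + 2), ((i.factorial : ℂ))⁻¹ • N ^ i) * Z =
      Z * (∑ i ∈ Finset.range (m + 2), ((i.factorial : ℂ))⁻¹ • N ^ i) +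
        Z1 * (∑ i ∈ Finset.range (m + 1), ((i.factorial : ℂ))⁻¹ • N ^ i) +
        (1 / 2 : ℂ) • (Z2 * (∑ i ∈ Finset.range m, ((i.factorial : ℂ))⁻¹ • N ^ i)) := by
    intro m
    induction m with
    | zero => simp [Finset.sum_range_succ, add_mul, mul_add, e, add_assoc]
    | succ m ih =>
      rw [show m + 1 + 2 = (m + 2) + 1 from rfl, Finset.sum_range_succ _ (m + 2), add_mul, ih,
        Finset.sum_range_succ _ (m + 1), Finset.sum_range_succ _ m,
        smul_mul_assoc, conjb_two N Z Z1 Z2 h1 h2 h3 m]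
      have f2 : (((m + 2).factorial : ℕ) : ℂ) = ((m : ℂ) + 2) * (((m : ℂ) + 1) * (m.factorial : ℂ)) := by
        rw [Nat.factorial_succ, Nat.factorial_succ]; push_cast; ring
      have f1 : (((m + 1).factorial : ℕ) : ℂ) = ((m : ℂ) + 1) * (m.factorial : ℂ) := by
        rw [Nat.factorial_succ]; push_cast; ring
      have n0 : (m.factorial : ℂ) ≠ 0 := by exact_mod_cast m.factorial_ne_zero
      have n1 : (m : ℂ) + 1 ≠ 0 := by exact_mod_cast m.succ_ne_zero
      have n2 : (m : ℂ) + 2 ≠ 0 := by exact_mod_cast (m + 1).succ_ne_zero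
      rw [f2, f1]
      simp only [mul_add Z, mul_add Z1, mul_add Z2, mul_smul_comm]
      match_scalars <;> field_simp
  rw [add_mul, add_mul, smul_mul_assoc]
  have := key k
  rw [← hs _ hk2, ← hs _ hk1, ← hs _ hk] at this
  exact this

theorem conjc_br {A : Type*} [Ring A] [Algebra ℂ A] (Y Z : A) (h : Y * Y = 0) :
    Y * (Y * Z - Z * Y) - (Y * Z - Z * Y) * Y = (-2 : ℂ) • (Y * Z * Y) := by
  have e : Y * (Y * Z - Z * Y) - (Y * Z - Z * Y) * Y = (Y * Y) * Z + Z * (Y * Y) - (Y * Z * Y + Y * Z * Y) := by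
    noncomm_ring
  rw [e, h, neg_smul, two_smul, zero_mul, mul_zero, add_zero, zero_sub]

theorem conjc_ring {A : Type*} [Ring A] [Algebra ℂ A] (Y Z : A) (h : Y * Y = 0) :
    (Z + (Y * Z - Z * Y) + (1 / 2 : ℂ) • (Y * (Y * Z - Z * Y) - (Y * Z - Z * Y) * Y)) * (1 + Y) = (1 + Y) * Z := by
  have e0 : (1 / 2 : ℂ) * (-2) = -1 := by norm_num
  rw [conjc_br Y Z h, smul_smul, e0, neg_smul, one_smul]
  have e : (Z + (Y * Z - Z * Y) + -(Y * Z * Y)) * (1 + Y) = (1 + Y) * Z - (1 + Y) * Z * (Y * Y) := by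
    noncomm_ring
  rw [e, h, mul_zero, sub_zero]

theorem conjc_ring3 {A : Type*} [Ring A] [Algebra ℂ A] (Y Z : A) (h : Y * Y = 0) :
    Y * (Y * (Y * Z - Z * Y) - (Y * Z - Z * Y) * Y) - (Y * (Y * Z - Z * Y) - (Y * Z - Z * Y) * Y) * Y = 0 := by
  rw [conjc_br Y Z h, mul_smul_comm, smul_mul_assoc]
  have e1 : Y * (Y * Z * Y) = (Y * Y) * (Z * Y) := by noncomm_ring
  have e2 : Y * Z * Y * Y = Y * Z * (Y * Y) := by noncomm_ring
  rw [e1, e2, h, zero_mul, mul_zero, sub_self]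

theorem conjc_one {a : Wt n} (H : HWR n a) (y : soD n)
    (hy : (y : Matrix (L n) (L n) ℂ) * (y : Matrix (L n) (L n) ℂ) = 0) (hn : IsNilpotent (H.ρ y)) (z : soD n) :
    ∃ z' : soD n, (z' : Matrix (L n) (L n) ℂ) * (1 + (y : Matrix (L n) (L n) ℂ)) =
        (1 + (y : Matrix (L n) (L n) ℂ)) * (z : Matrix (L n) (L n) ℂ) ∧
      H.ρ z' * IsNilpotent.exp (H.ρ y) = IsNilpotent.exp (H.ρ y) * H.ρ z := by
  refine ⟨z + ⁅y, z⁆ + (1 / 2 : ℂ) • ⁅y, ⁅y, z⁆⁆, conjc_ring (y : Matrix (L n) (L n) ℂ) (z : Matrix (L n) (L n) ℂ) hy, ?_⟩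
  have h3 : (⁅y, ⁅y, ⁅y, z⁆⁆⁆ : soD n) = 0 :=
    Subtype.ext (conjc_ring3 (y : Matrix (L n) (L n) ℂ) (z : Matrix (L n) (L n) ℂ) hy)
  have h4 := H.lie y ⁅y, ⁅y, z⁆⁆
  rw [h3, map_zero] at h4
  rw [map_add, map_add, map_smul]
  exact (exp_conj (H.ρ y) (H.ρ z) (H.ρ ⁅y, z⁆) (H.ρ ⁅y, ⁅y, z⁆⁆) hn (H.lie y z).symm (H.lie y ⁅y, z⁆).symm
    (sub_eq_zero.1 h4.symm)).symm

/-- induction on the word; one letter `y = s • X p q`: `z' = z + ⁅y, z⁆ + (1/2) • ⁅y, ⁅y, z⁆⁆`, `y * y = 0` as matrices gives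
`z' (1 + y) = (1 + y) z` and `⁅y, ⁅y, ⁅y, z⁆⁆⁆ = 0`; `exp_conj`, `H.lie`. -/
theorem HWR.conj {a : Wt n} (H : HWR n a) {σ : Type} (w : List ((L n × L n) × σ)) (hw : Roots w) (t : σ → ℂ) (z : soD n) :
    ∃ z' : soD n, (z' : Matrix (L n) (L n) ℂ) * gw w t = gw w t * (z : Matrix (L n) (L n) ℂ) ∧
      H.ρ z' * H.act w t = H.act w t * H.ρ z := by
  induction w with
  | nil => exact ⟨z, by simp [gw], by simp [HWR.act]⟩
  | cons x w ih =>
    obtain ⟨z1, h1, h2⟩ := ih fun u hu => hw u (List.mem_cons_of_mem _ hu)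
    have hx : x.1.1 ≠ x.1.2 := hw x List.mem_cons_self
    have hc : ((t x.2 • X x.1.1 x.1.2 : soD n) : Matrix (L n) (L n) ℂ) = t x.2 • Xm x.1.1 x.1.2 := rfl
    obtain ⟨z', h3, h4⟩ := conjc_one H (t x.2 • X x.1.1 x.1.2)
      (by rw [hc, smul_mul_smul_comm, Xm_sq hx, smul_zero])
      (by rw [map_smul]; exact (H.nil hx).smul _) z1
    rw [hc] at h3
    rw [map_smul] at h4
    have g1 : gw (x :: w) t = (1 + t x.2 • Xm x.1.1 x.1.2) * gw w t := by simp [gw]
    have g2 : H.act (x :: w) t = IsNilpotent.exp (t x.2 • H.ρ (X x.1.1 x.1.2)) * H.act w t := by simp [HWR.act]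
    refine ⟨z', ?_, ?_⟩
    · rw [g1, ← mul_assoc, h3, mul_assoc, h1, mul_assoc]
    · rw [g2, ← mul_assoc, h4, mul_assoc, h2, mul_assoc]

theorem conja_bf_skew {Y : Matrix (L n) (L n) ℂ} (hY : ∀ p q, Y p q = -Y q.swap p.swap) (u v : L n → ℂ) :
    bf (Y *ᵥ u) v = -bf u (Y *ᵥ v) := by
  simp only [bf, Matrix.mulVec, dotProduct, Finset.sum_mul, Finset.mul_sum]
  rw [Finset.sum_comm, ← Finset.sum_neg_distrib]
  refine Finset.sum_congr rfl fun r _ => ?_
  rw [← Finset.sum_neg_distrib, ← Equiv.sum_comp (Equiv.sumComm (Fin n) (Fin n))]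
  refine Finset.sum_congr rfl fun s _ => ?_
  simp only [Equiv.sumComm_apply, Sum.swap_swap]
  rw [hY s.swap r, Sum.swap_swap]
  ring

theorem conja_bf_add_l (u u' v : L n → ℂ) : bf (u + u') v = bf u v + bf u' v := by
  simp only [bf, Pi.add_apply, add_mul, Finset.sum_add_distrib]

theorem conja_bf_add_r (u v v' : L n → ℂ) : bf u (v + v') = bf u v + bf u v' := by
  simp only [bf, Pi.add_apply, mul_add, Finset.sum_add_distrib]

theorem conja_one {Y : Matrix (L n) (L n) ℂ} (hY : ∀ p q, Y p q = -Y q.swap p.swap) (h2 : Y * Y = 0) : Orth (1 + Y) := by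
  refine ⟨⟨⟨1 + Y, 1 - Y, ?_, ?_⟩, rfl⟩, fun u v => ?_⟩
  · rw [add_mul, mul_sub, mul_sub, h2]; simp
  · rw [sub_mul, mul_add, mul_add, h2]; simp
  · rw [Matrix.add_mulVec, Matrix.add_mulVec, Matrix.one_mulVec, Matrix.one_mulVec, conja_bf_add_l, conja_bf_add_r,
      conja_bf_add_r, conja_bf_skew hY u v, conja_bf_skew hY u (Y *ᵥ v), Matrix.mulVec_mulVec, h2, Matrix.zero_mulVec]
    have : bf u (0 : L n → ℂ) = 0 := by simp [bf]
    rw [this]; ring

/-- one letter: inverse `1 - s • Xm p q` (`Xm_sq`), `bf (y u) v = -bf u (y v)` for `y` in `soD` (`mem_typeD`). -/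
theorem gw_orth {σ : Type} (w : List ((L n × L n) × σ)) (hw : Roots w) (t : σ → ℂ) : Orth (gw w t) := by
  induction w with
  | nil => exact ⟨by simp [gw], fun u v => by simp [gw]⟩
  | cons x w ih =>
    have h1 := ih fun y hy => hw y (List.mem_cons_of_mem _ hy)
    have h0 : Orth (1 + t x.2 • Xm x.1.1 x.1.2) := by
      refine conja_one (fun p q => ?_) ?_
      · simp only [Matrix.smul_apply, smul_eq_mul]
        rw [mem_typeD.1 (Xm_mem x.1.1 x.1.2) p q]; ring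
      · rw [smul_mul_smul_comm, Xm_sq (hw x List.mem_cons_self), smul_zero]
    have e : gw (x :: w) t = (1 + t x.2 • Xm x.1.1 x.1.2) * gw w t := by simp [gw]
    rw [e]
    refine ⟨h0.1.mul h1.1, fun u v => ?_⟩
    rw [← Matrix.mulVec_mulVec, ← Matrix.mulVec_mulVec, h0.2, h1.2]

end Crest.Agent.R172.HM
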