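import Crest.Agent.R172.W.Lie

/-! R172/HM/Defs (helper44): model-free Hilbert–Mumford step; definitions. -/

set_option autoImplicit false
set_option linter.unusedVariables false
open Matrix Sum Module Crest.AlgebraR.SpinSaturation Crest.Agent.R172.W

noncomputable section
namespace Crest.Agent.R172.HM
variable {n : ℕ}

/-- the symmetric form with matrix `J` -/
def bf (u v : L n → ℂ) : ℂ := ∑ p, u p * v p.swap
/-- signed doubled weight of the basis vector `e_p` -/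
def sw (a : Wt n) : L n → ℤ := Sum.elim a fun i => -a i
/-- coordinate subspace -/
def cs {ι : Type*} (S : Set ι) : Submodule ℂ (ι → ℂ) where
  carrier := {v | ∀ p, p ∉ S → v p = 0}
  add_mem' := fun {u v} hu hv p hp => by simp [hu p hp, hv p hp]
  zero_mem' := fun p _ => rfl
  smul_mem' := fun c v hv p hp => by simp [hv p hp]
theorem mem_cs {ι : Type*} {S : Set ι} {v : ι → ℂ} : v ∈ cs S ↔ ∀ p, p ∉ S → v p = 0 := Iff.rfl
/-- the member `q` of the filtration of weight `a` in position `g` -/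
def Fq (g : Matrix (L n) (L n) ℂ) (a : Wt n) (Lv q : ℕ) : Submodule ℂ (L n → ℂ) :=
  (cs {p | 2 * (q : ℤ) < Lv + sw a p}).map g.mulVecLin
/-- twice the parabolic degree of `R` -/
def deg2 (g : Matrix (L n) (L n) ℂ) (a : Wt n) (Lv : ℕ) (R : Submodule ℂ (L n → ℂ)) : ℤ :=
  ∑ q ∈ Finset.range Lv, (2 * (finrank ℂ ↥(R ⊓ Fq g a Lv q) : ℤ) - (finrank ℂ R : ℤ))
/-- the length `Lv` fits the weight -/
def Fit (a : Wt n) (Lv : ℕ) : Prop := ∀ i, |a i| ≤ Lv ∧ Even ((Lv : ℤ) + a i)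
/-- the orthogonal complement -/
def perp (R : Submodule ℂ (L n → ℂ)) : Submodule ℂ (L n → ℂ) where
  carrier := {w | ∀ r ∈ R, bf r w = 0}
  add_mem' := fun {u v} hu hv r hr => by
    have := hu r hr; have := hv r hr
    simp only [bf, Pi.add_apply, mul_add, Finset.sum_add_distrib] at *; simp [*]
  zero_mem' := fun r _ => by simp [bf]
  smul_mem' := fun c v hv r hr => by
    have := hv r hr
    simp only [bf, Pi.smul_apply, smul_eq_mul, mul_left_comm _ c, ← Finset.mul_sum] at *; simp [*]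
theorem mem_perp {R : Submodule ℂ (L n → ℂ)} {w : L n → ℂ} : w ∈ perp R ↔ ∀ r ∈ R, bf r w = 0 := Iff.rfl
/-- orthogonal invertible matrices -/
def Orth (g : Matrix (L n) (L n) ℂ) : Prop := IsUnit g ∧ ∀ u v, bf (g *ᵥ u) (g *ᵥ v) = bf u v
/-- words in root letters -/
def Roots {σ : Type} (w : List ((L n × L n) × σ)) : Prop := ∀ x ∈ w, x.1.1 ≠ x.1.2
/-- the matrix of a word -/
def gw {σ : Type} (w : List ((L n × L n) × σ)) (t : σ → ℂ) : Matrix (L n) (L n) ℂ :=
  (w.map fun x => 1 + t x.2 • Xm x.1.1 x.1.2).prod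
/-- the upper Borel subalgebra -/
def Up (z : soD n) : Prop :=
  (∀ i j, (z : Matrix (L n) (L n) ℂ) (inr i) (inl j) = 0) ∧
    ∀ i j, j < i → (z : Matrix (L n) (L n) ℂ) (inl i) (inl j) = 0
/-- the character of weight `a` of the Borel subalgebra -/
def chi (a : Wt n) (z : soD n) : ℂ := ∑ i, (a i : ℂ) / 2 * (z : Matrix (L n) (L n) ℂ) (inl i) (inl i)
/-- grading elements of the parabolic subalgebra of an isotropic `R` -/
def InX (z : soD n) (R : Submodule ℂ (L n → ℂ)) : Prop :=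
  (∀ r ∈ R, (z : Matrix (L n) (L n) ℂ) *ᵥ r = r) ∧ ∀ w ∈ perp R, (z : Matrix (L n) (L n) ℂ) *ᵥ w ∈ R

/-- `ℚ` acts through `ℂ` (`Rat.cast_smul_eq_qsmul ℂ q x` converts the scalars) -/
instance (priority := 50) endQ {E : Type*} [AddCommGroup E] [Module ℂ E] : Module ℚ (Module.End ℂ E) :=
  Module.compHom _ (algebraMap ℚ ℂ)

/-- a finite-dimensional representation generated by a highest weight vector -/
structure HWR (n : ℕ) (a : Wt n) where
  E : Type
  [i1 : AddCommGroup E]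
  [i2 : Module ℂ E]
  [i3 : FiniteDimensional ℂ E]
  ρ : soD n →ₗ[ℂ] Module.End ℂ E
  lie : ∀ x y : soD n, ρ ⁅x, y⁆ = ρ x * ρ y - ρ y * ρ x
  v : E
  hw : ∀ z : soD n, Up z → ρ z v = chi a z • v
  gen : ∀ S : Submodule ℂ E, v ∈ S → (∀ z, ∀ u ∈ S, ρ z u ∈ S) → S = ⊤

attribute [instance] HWR.i1 HWR.i2 HWR.i3

/-- the action of a word -/
def HWR.act {a : Wt n} (H : HWR n a) {σ : Type} (w : List ((L n × L n) × σ)) (t : σ → ℂ) : Module.End ℂ H.E :=
  (w.map fun x => IsNilpotent.exp (t x.2 • H.ρ (X x.1.1 x.1.2))).prod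

/-- invariant trilinear forms -/
def InvB {a b c : Wt n} (H1 : HWR n a) (H2 : HWR n b) (H3 : HWR n c)
    (B : H1.E →ₗ[ℂ] H2.E →ₗ[ℂ] H3.E →ₗ[ℂ] ℂ) : Prop :=
  ∀ z u1 u2 u3, B (H1.ρ z u1) u2 u3 + B u1 (H2.ρ z u2) u3 + B u1 u2 (H3.ρ z u3) = 0

/-- semistability of three filtrations -/
def SS (g1 g2 g3 : Matrix (L n) (L n) ℂ) (a b c : Wt n) (L1 L2 L3 : ℕ) : Prop :=
  ∀ R : Submodule ℂ (L n → ℂ), deg2 g1 a L1 R + deg2 g2 b L2 R + deg2 g3 c L3 R ≤ 0

/-- the twist `z ↦ J z J` -/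
def th (z : soD n) : soD n :=
  ⟨Matrix.of fun p q => (z : Matrix (L n) (L n) ℂ) p.swap q.swap, mem_typeD.2 fun p q => by
    simpa using mem_typeD.1 z.2 p.swap q.swap⟩

end Crest.Agent.R172.HM
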