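import Crest.Agent.R172.HM.Defs

/-! R172/HM/Dual (architect helper44) -/

set_option autoImplicit false
set_option linter.unusedVariables false
open Matrix Sum Module Crest.AlgebraR.SpinSaturation Crest.Agent.R172.W

noncomputable section
namespace Crest.Agent.R172.HM
variable {n : ℕ}

theorem duala_coord {M : Type*} [AddCommGroup M] [Module ℂ M] [LieRingModule (soD n) M] [LieModule ℂ (soD n) M] {ι : Type*}
    (b : Module.Basis ι ℂ M) (wt : ι → Wt n) (h : ∀ k, IsWV (wt k) (b k)) (k : ι) (i : Fin n) (u : M) :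
    b.coord k ⁅X (inl i) (inl i), u⁆ = (wt k i : ℂ) / 2 * b.coord k u := by
  classical
  have : b.coord k ∘ₗ LieModule.toEnd ℂ (soD n) M (X (inl i) (inl i)) = ((wt k i : ℂ) / 2) • b.coord k := by
    refine b.ext fun j => ?_
    rw [LinearMap.comp_apply, LieModule.toEnd_apply_apply, h j i, map_smul, LinearMap.smul_apply, b.coord_apply, b.repr_self,
      Finsupp.single_apply]
    split_ifs with e
    · rw [e]
    · simp
  exact LinearMap.congr_fun this u

theorem duala_wt {M : Type*} [AddCommGroup M] [Module ℂ M] [LieRingModule (soD n) M] [LieModule ℂ (soD n) M] {ι : Type*}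
    (b : Module.Basis ι ℂ M) (wt : ι → Wt n) (h : ∀ k, IsWV (wt k) (b k)) (k : ι) {μ : Wt n} {u : M} (hu : IsWV μ u)
    (h0 : b.coord k u ≠ 0) : wt k = μ := by
  funext i
  have e := duala_coord b wt h k i u
  rw [hu i, map_smul, smul_eq_mul] at e
  have e2 := mul_right_cancel₀ h0 e
  have e3 : (wt k i : ℂ) = μ i := by linear_combination (-2 : ℂ) * e2
  exact_mod_cast e3

theorem duala_neg {z : soD n} (hz : Up z) {p q : L n} (hpq : p ≠ q) (h0 : (z : Matrix (L n) (L n) ℂ) p.swap q.swap ≠ 0) :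
    rho n ⬝ᵥ (ev p - ev q) < 0 := by
  have hs := mem_typeD.1 z.2
  rw [dotProduct_sub]
  rcases p with i | i <;> rcases q with j | j <;>
    simp only [ev, Sum.elim_inl, Sum.elim_inr, dotProduct_neg, dotProduct_single, mul_one, rho, Sum.swap_inl, Sum.swap_inr] at h0 ⊢
  · have h1 : ¬i < j := fun h => h0 (by rw [hs, Sum.swap_inr, Sum.swap_inr, hz.2 j i h, neg_zero])
    have h2 : i ≠ j := fun h => hpq (by rw [h])
    omega
  · exact absurd (hz.1 i j) h0
  · have h2 : i ≠ j := by
      rintro rfl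
      have := hs (inl i) (inr i)
      rw [Sum.swap_inr, Sum.swap_inl] at this
      exact h0 (by linear_combination (1 / 2 : ℂ) * this)
    omega
  · have h1 : ¬j < i := fun h => h0 (hz.2 i j h)
    have h2 : i ≠ j := fun h => hpq (by rw [h])
    omega

/-- Weight basis `exists_wb U`; the highest weight vector `v` has a non-zero coordinate `k`, so `wt k = a`; `ℓ = b.coord k`.
Write `z` by `X_span`; `th (X p q) = X p.swap q.swap`; diagonal letters give the scalar; for the other letters with a non-zero entry,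
`⁅X p.swap q.swap, b j⁆` is a weight vector (`IsWV.lie`) whose weight is not `a` (pair `Le (wt j) a` with `κ = rho n`), so its coordinate `k` vanishes. -/
theorem dual_hw {a : Wt n} (U : Irrep n a) : ∃ ℓ : Module.Dual ℂ U.V, ℓ ≠ 0 ∧
    ∀ z : soD n, Up z → ∀ u, ℓ ⁅th z, u⁆ = -(chi a z * ℓ u) := by
  obtain ⟨d, b, wt, hw, hle⟩ := exists_wb U
  obtain ⟨v, hv⟩ := U.highestWeight
  obtain ⟨hv0, hwv, -⟩ := hw_of hv
  obtain ⟨k, hk⟩ : ∃ k, b.coord k v ≠ 0 := by
    by_contra hc
    push Not at hc
    exact hv0 (b.repr.injective (Finsupp.ext fun k => by simpa using hc k))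
  have hka : wt k = a := duala_wt b wt hw k hwv hk
  have hdom : Dom (rho n) := fun i j hij => by
    have := j.2
    simp only [rho]
    rw [abs_le]
    omega
  refine ⟨b.coord k, fun h => hk (by rw [h, LinearMap.zero_apply]), fun z hz u => ?_⟩
  have hs := mem_typeD.1 z.2
  have key : ∀ p q : L n, p ≠ q → (z : Matrix (L n) (L n) ℂ) p.swap q.swap / 2 * b.coord k ⁅X p q, u⁆ = 0 := by
    intro p q hpq
    by_cases h0 : (z : Matrix (L n) (L n) ℂ) p.swap q.swap = 0
    · rw [h0, zero_div, zero_mul]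
    have h1 := duala_neg hz hpq h0
    have : b.coord k ∘ₗ LieModule.toEnd ℂ (soD n) U.V (X p q) = 0 := by
      refine b.ext fun j => ?_
      by_contra hc
      have e := duala_wt b wt hw k ((hw j).lie p q) hc
      have h2 := hle j _ hdom
      rw [← hka, e, dotProduct_add, two_nsmul, dotProduct_add] at h2
      omega
    have h3 : b.coord k ⁅X p q, u⁆ = 0 := LinearMap.congr_fun this u
    rw [h3, mul_zero]
  rw [lc_lie_span, map_sum]
  have e1 : ∀ p : L n, b.coord k (∑ q, ((th z : Matrix (L n) (L n) ℂ) p q / 2) • ⁅X p q, u⁆) =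
      (z : Matrix (L n) (L n) ℂ) p.swap p.swap / 2 * b.coord k ⁅X p p, u⁆ := fun p => by
    rw [map_sum, Finset.sum_eq_single p (fun q _ hq => by rw [map_smul, smul_eq_mul]; exact key p q hq.symm) (by simp),
      map_smul, smul_eq_mul]
    rfl
  simp only [e1]
  rw [Fintype.sum_sum_type, chi, Finset.sum_mul, ← Finset.sum_add_distrib, ← Finset.sum_neg_distrib]
  refine Finset.sum_congr rfl fun i _ => ?_
  rw [X_skew (inr i) (inr i), neg_lie, map_neg, Sum.swap_inr, Sum.swap_inl, duala_coord b wt hw, hka, hs (inr i) (inr i),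
    Sum.swap_inr]
  ring

/-- `S.dualCoannihilator` is a Lie submodule, not `⊤` since `ℓ ≠ 0`, hence `⊥`; `Subspace.dualCoannihilator_dualAnnihilator_eq` / finrank. -/
theorem dual_gen {a : Wt n} (U : Irrep n a) (ℓ : Module.Dual ℂ U.V) (h0 : ℓ ≠ 0) (S : Submodule ℂ (Module.Dual ℂ U.V))
    (hℓ : ℓ ∈ S) (hS : ∀ z : soD n, ∀ m ∈ S, m ∘ₗ LieModule.toEnd ℂ (soD n) U.V z ∈ S) : S = ⊤ := by
  have := U.finiteDimensional
  have := U.irreducible
  let N : LieSubmodule ℂ (soD n) U.V :=
    { S.dualCoannihilator with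
      lie_mem := fun {z u} hu => by
        have hu' : u ∈ S.dualCoannihilator := hu
        change ⁅z, u⁆ ∈ S.dualCoannihilator
        rw [Submodule.mem_dualCoannihilator] at hu' ⊢
        intro φ hφ
        exact hu' _ (hS z φ hφ) }
  have hN : ∀ u : U.V, u ∈ N ↔ u ∈ S.dualCoannihilator := fun u => Iff.rfl
  rcases eq_bot_or_eq_top N with h | h
  · have hb : S.dualCoannihilator = ⊥ := by
      rw [eq_bot_iff]
      intro u hu
      have : u ∈ N := (hN u).2 hu
      rw [h] at this
      simpa using this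
    rw [← Subspace.dualCoannihilator_dualAnnihilator_eq (W := S), hb, Submodule.dualAnnihilator_bot]
  · exfalso
    apply h0
    ext u
    have : u ∈ N := by rw [h]; trivial
    exact (Submodule.mem_dualCoannihilator u).1 ((hN u).1 this) ℓ hℓ

theorem th_th (z : soD n) : th (th z) = z := by
  apply Subtype.ext
  ext p q
  simp [th]

theorem th_lie (x y : soD n) : th ⁅x, y⁆ = ⁅th x, th y⁆ := by
  apply Subtype.ext
  ext p q
  have key : ∀ A B : Matrix (L n) (L n) ℂ,
      (A * B) p.swap q.swap = ∑ r : L n, A p.swap r.swap * B r.swap q.swap := fun A B => by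
    rw [Matrix.mul_apply]
    exact ((Equiv.sumComm (Fin n) (Fin n)).sum_comp fun r => A p.swap r * B r q.swap).symm
  change ((x : Matrix (L n) (L n) ℂ) * (y : Matrix (L n) (L n) ℂ) - (y : Matrix (L n) (L n) ℂ) * (x : Matrix (L n) (L n) ℂ))
      p.swap q.swap = ((th x : Matrix (L n) (L n) ℂ) * (th y : Matrix (L n) (L n) ℂ) -
        (th y : Matrix (L n) (L n) ℂ) * (th x : Matrix (L n) (L n) ℂ)) p q
  rw [Matrix.sub_apply, Matrix.sub_apply, key, key, Matrix.mul_apply, Matrix.mul_apply]
  rfl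

end Crest.Agent.R172.HM
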