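import Crest.Agent.R172.HM.Dual

/-! R172/HM/DualB (architect helper44) -/

set_option autoImplicit false
set_option linter.unusedVariables false
open Matrix Sum Module Crest.AlgebraR.SpinSaturation Crest.Agent.R172.W

noncomputable section
namespace Crest.Agent.R172.HM
variable {n : ℕ}

/-- the twist as a linear map -/
def dualba_thL : soD n →ₗ[ℂ] soD n where
  toFun := th
  map_add' x y := by apply Subtype.ext; ext p q; rfl
  map_smul' c x := by apply Subtype.ext; ext p q; rfl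

/-- `E = Module.Dual ℂ U.V`, `ρ z m = -(m ∘ₗ toEnd (th z))` (linear in `z`; `th_lie`, `th_th`), `v = ℓ` of `dual_hw`, `gen` from `dual_gen`. -/
theorem exists_hwr {a : Wt n} (U : Irrep n a) : ∃ (H : HWR n a) (e : H.E ≃ₗ[ℂ] Module.Dual ℂ U.V),
    ∀ z m u, e (H.ρ z m) u = -e m ⁅th z, u⁆ := by
  have := U.finiteDimensional
  obtain ⟨ℓ, h0, hℓ⟩ := dual_hw U
  let ρ : soD n →ₗ[ℂ] Module.End ℂ (Module.Dual ℂ U.V) :=
    -((Module.Dual.transpose (R := ℂ)) ∘ₗ (LieModule.toEnd ℂ (soD n) U.V : soD n →ₗ[ℂ] Module.End ℂ U.V) ∘ₗ dualba_thL)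
  have hρ : ∀ z m u, ρ z m u = -m ⁅th z, u⁆ := fun z m u => rfl
  refine ⟨{ E := Module.Dual ℂ U.V, ρ := ρ, lie := ?_, v := ℓ, hw := ?_, gen := ?_ }, LinearEquiv.refl _ _, fun z m u => hρ z m u⟩
  · intro x y
    ext m u
    simp only [LinearMap.sub_apply, Module.End.mul_apply, hρ, th_lie, lie_lie, map_sub]
    ring
  · intro z hz
    ext u
    rw [hρ, hℓ z hz]; simp
  · intro S h1 h2
    refine dual_gen U ℓ h0 S h1 fun z m hm => ?_
    have := S.neg_mem (h2 (th z) m hm)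
    convert this using 1
    ext u
    simp [hρ, th_th]

open scoped TensorProduct in
/-- the product functional -/
def dualbb_D (A B C : Type) [AddCommGroup A] [Module ℂ A] [AddCommGroup B] [Module ℂ B] [AddCommGroup C] [Module ℂ C] :
    Module.Dual ℂ A ⊗[ℂ] (Module.Dual ℂ B ⊗[ℂ] Module.Dual ℂ C) →ₗ[ℂ] Module.Dual ℂ (A ⊗[ℂ] (B ⊗[ℂ] C)) :=
  TensorProduct.dualDistrib ℂ A (B ⊗[ℂ] C) ∘ₗ LinearMap.lTensor _ (TensorProduct.dualDistrib ℂ B C)

open scoped TensorProduct in
theorem dualbb_D_apply {A B C : Type} [AddCommGroup A] [Module ℂ A] [AddCommGroup B] [Module ℂ B] [AddCommGroup C] [Module ℂ C]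
    (m1 : Module.Dual ℂ A) (m2 : Module.Dual ℂ B) (m3 : Module.Dual ℂ C) (x : A) (y : B) (z : C) :
    dualbb_D A B C (m1 ⊗ₜ (m2 ⊗ₜ m3)) (x ⊗ₜ (y ⊗ₜ z)) = m1 x * (m2 y * m3 z) := by
  simp [dualbb_D]

open scoped TensorProduct in
theorem dualbb_D_surj {A B C : Type} [AddCommGroup A] [Module ℂ A] [AddCommGroup B] [Module ℂ B] [AddCommGroup C] [Module ℂ C]
    [FiniteDimensional ℂ A] [FiniteDimensional ℂ B] [FiniteDimensional ℂ C] :
    Function.Surjective (dualbb_D A B C) := by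
  have h1 : Function.Surjective (TensorProduct.dualDistrib ℂ A (B ⊗[ℂ] C)) :=
    (TensorProduct.dualDistribEquiv ℂ A (B ⊗[ℂ] C)).surjective
  have h2 : Function.Surjective (TensorProduct.dualDistrib ℂ B C) :=
    (TensorProduct.dualDistribEquiv ℂ B C).surjective
  exact h1.comp (LinearMap.lTensor_surjective _ h2)

/-- `B m1 m2 m3` = value of `e1 m1 ⊗ e2 m2 ⊗ e3 m3` at the invariant tensor `t` (`TensorProduct.dualDistrib`, or `TensorProduct.lift`);
`B ≠ 0` since these functionals separate points (coordinates of the tensor product basis); invariance from `⁅th z, t⁆ = 0`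
(prove `Φ(ρ z m1, m2, m3) s + … = -Φ(m1, m2, m3) ⁅th z, s⁆` for every tensor `s` by induction). -/
theorem exists_B {a b c : Wt n} (U : Irrep n a) (V : Irrep n b) (W : Irrep n c) (h : HasInvariant U V W) :
    ∃ (H1 : HWR n a) (H2 : HWR n b) (H3 : HWR n c) (B : H1.E →ₗ[ℂ] H2.E →ₗ[ℂ] H3.E →ₗ[ℂ] ℂ), B ≠ 0 ∧ InvB H1 H2 H3 B := by
  obtain ⟨H1, e1, he1⟩ := exists_hwr U
  obtain ⟨H2, e2, he2⟩ := exists_hwr V
  obtain ⟨H3, e3, he3⟩ := exists_hwr W
  obtain ⟨t, ht0, ht⟩ := h
  haveI := U.finiteDimensional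
  haveI := V.finiteDimensional
  haveI := W.finiteDimensional
  let Ψ : TensorProduct ℂ H1.E (TensorProduct ℂ H2.E H3.E) →ₗ[ℂ] ℂ :=
    (Module.Dual.eval ℂ _ t) ∘ₗ dualbb_D U.V V.V W.V ∘ₗ
      TensorProduct.map e1.toLinearMap (TensorProduct.map e2.toLinearMap e3.toLinearMap)
  let B : H1.E →ₗ[ℂ] H2.E →ₗ[ℂ] H3.E →ₗ[ℂ] ℂ :=
    (TensorProduct.lcurry (RingHom.id ℂ) H2.E H3.E ℂ) ∘ₗ TensorProduct.curry Ψ
  have hB : ∀ u1 u2 u3, B u1 u2 u3 = dualbb_D U.V V.V W.V (e1 u1 ⊗ₜ (e2 u2 ⊗ₜ e3 u3)) t := by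
    intro u1 u2 u3
    simp [B, Ψ]
  refine ⟨H1, H2, H3, B, ?_, ?_⟩
  · intro h0
    apply ht0
    rw [← Module.forall_dual_apply_eq_zero_iff ℂ t]
    intro φ
    obtain ⟨s, rfl⟩ := dualbb_D_surj φ
    induction s using TensorProduct.induction_on with
    | zero => simp
    | add x y hx hy => simp [hx, hy]
    | tmul m1 s' =>
      induction s' using TensorProduct.induction_on with
      | zero => simp
      | add x y hx hy => simp [TensorProduct.tmul_add, hx, hy]
      | tmul m2 m3 =>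
        have := hB (e1.symm m1) (e2.symm m2) (e3.symm m3)
        rw [h0] at this
        simpa using this.symm
  · intro z u1 u2 u3
    rw [hB, hB, hB]
    have key : ∀ s : TensorProduct ℂ U.V (TensorProduct ℂ V.V W.V),
        dualbb_D U.V V.V W.V (e1 (H1.ρ z u1) ⊗ₜ (e2 u2 ⊗ₜ e3 u3)) s
          + dualbb_D U.V V.V W.V (e1 u1 ⊗ₜ (e2 (H2.ρ z u2) ⊗ₜ e3 u3)) s
          + dualbb_D U.V V.V W.V (e1 u1 ⊗ₜ (e2 u2 ⊗ₜ e3 (H3.ρ z u3))) s
          = -dualbb_D U.V V.V W.V (e1 u1 ⊗ₜ (e2 u2 ⊗ₜ e3 u3)) ⁅th z, s⁆ := by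
      intro s
      induction s using TensorProduct.induction_on with
      | zero => simp
      | add x y hx hy =>
        simp only [map_add, lie_add]
        linear_combination hx + hy
      | tmul x s' =>
        induction s' using TensorProduct.induction_on with
        | zero => simp
        | add y y' hx hy =>
          simp only [TensorProduct.tmul_add, map_add, lie_add] at hx hy ⊢
          linear_combination hx + hy
        | tmul y w =>
          simp only [TensorProduct.LieModule.lie_tmul_right, TensorProduct.tmul_add, map_add, dualbb_D_apply,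
            he1, he2, he3]
          ring
    rw [key t, ht (th z)]
    simp

end Crest.Agent.R172.HM
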