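import Crest.Agent.R172.HM.Defs

/-! R172/HM/Ech (architect helper44) -/

set_option autoImplicit false
set_option linter.unusedVariables false
open Matrix Sum Module Crest.AlgebraR.SpinSaturation Crest.Agent.R172.W

noncomputable section
namespace Crest.Agent.R172.HM
variable {n : ℕ}

/-- pivots -/
def echa_J {ι : Type*} (pos : ι → ℤ) (R : Submodule ℂ (ι → ℂ)) (p : ι) : Prop :=
  ∃ r ∈ R, r p ≠ 0 ∧ ∀ q, pos p < pos q → r q = 0

theorem echa_zero {ι : Type*} [Fintype ι] [DecidableEq ι] (pos : ι → ℤ) (R : Submodule ℂ (ι → ℂ)) (r : ι → ℂ) (hr : r ∈ R)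
    (h : ∀ q, echa_J pos R q → r q = 0) : r = 0 := by
  classical
  by_contra hne
  have hn : (Finset.univ.filter fun q => r q ≠ 0).Nonempty := by
    obtain ⟨q, hq⟩ := Function.ne_iff.1 hne
    exact ⟨q, Finset.mem_filter.2 ⟨Finset.mem_univ _, hq⟩⟩
  obtain ⟨p, hp, hmax⟩ := Finset.exists_max_image _ pos hn
  have hp' := (Finset.mem_filter.1 hp).2
  refine hp' (h p ⟨r, hr, hp', fun q hq => ?_⟩)
  by_contra hq'
  have := hmax q (Finset.mem_filter.2 ⟨Finset.mem_univ _, hq'⟩)
  omega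

theorem echa_lift {ι : Type*} [Fintype ι] [DecidableEq ι] (pos : ι → ℤ) (hpos : Function.Injective pos) (R : Submodule ℂ (ι → ℂ))
    (S : Finset ι) : (∀ p q, pos p ≤ pos q → q ∈ S → p ∈ S) → ∀ w : ι → ℂ, (∀ q, q ∉ S → w q = 0) →
      ∃ r ∈ R, (∀ q, q ∉ S → r q = 0) ∧ ∀ q, echa_J pos R q → r q = w q := by
  classical
  induction S using Finset.strongInduction with
  | H S ih =>
    intro hS w hw
    rcases S.eq_empty_or_nonempty with rfl | hn
    · exact ⟨0, R.zero_mem, fun q _ => rfl, fun q _ => (hw q (Finset.notMem_empty q)).symm⟩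
    obtain ⟨p, hp, hmax⟩ := Finset.exists_max_image _ pos hn
    have hS' : ∀ a b, pos a ≤ pos b → b ∈ S.erase p → a ∈ S.erase p := fun a b hab hb => by
      obtain ⟨hb1, hb2⟩ := Finset.mem_erase.1 hb
      refine Finset.mem_erase.2 ⟨?_, hS a b hab hb2⟩
      rintro rfl
      exact hb1 (hpos (le_antisymm (hmax b hb2) hab))
    have ih' := ih (S.erase p) (Finset.erase_ssubset hp) hS'
    by_cases hJ : echa_J pos R p
    · obtain ⟨r0, h0, h1, h2⟩ := hJ
      have h3 : ∀ q, q ∉ S → r0 q = 0 := fun q hq => h2 q (by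
        by_contra hlt
        exact hq (hS q p (not_lt.1 hlt) hp))
      obtain ⟨r, hr, hr1, hr2⟩ := ih' (w - (w p / r0 p) • r0) (fun q hq => by
        by_cases hqp : q = p
        · subst hqp
          simp only [Pi.sub_apply, Pi.smul_apply, smul_eq_mul]
          rw [div_mul_cancel₀ _ h1, sub_self]
        · have hq' : q ∉ S := fun h => hq (Finset.mem_erase.2 ⟨hqp, h⟩)
          simp [hw q hq', h3 q hq'])
      refine ⟨r + (w p / r0 p) • r0, R.add_mem hr (R.smul_mem _ h0), fun q hq => ?_, fun q hq => ?_⟩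
      · have := hr1 q (fun h => hq (Finset.mem_of_mem_erase h))
        simp [this, h3 q hq]
      · have := hr2 q hq
        simp only [Pi.sub_apply, Pi.add_apply] at this ⊢
        rw [this, sub_add_cancel]
    · obtain ⟨r, hr, hr1, hr2⟩ := ih' (Function.update w p 0) (fun q hq => by
        by_cases hqp : q = p
        · subst hqp; simp
        · have hq' : q ∉ S := fun h => hq (Finset.mem_erase.2 ⟨hqp, h⟩)
          rw [Function.update_of_ne hqp, hw q hq'])
      refine ⟨r, hr, fun q hq => hr1 q (fun h => hq (Finset.mem_of_mem_erase h)), fun q hq => ?_⟩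
      have hqp : q ≠ p := fun e => hJ (e ▸ hq)
      rw [hr2 q hq, Function.update_of_ne hqp]

theorem echa_rank {ι : Type*} [Fintype ι] [DecidableEq ι] (pos : ι → ℤ) (hpos : Function.Injective pos) (R : Submodule ℂ (ι → ℂ))
    (S T : Finset ι) (hS : ∀ p q, pos p ≤ pos q → q ∈ S → p ∈ S) (hT : ∀ q, q ∈ T ↔ q ∈ S ∧ echa_J pos R q) :
    finrank ℂ ↥(R ⊓ cs (S : Set ι)) = T.card := by
  classical
  let f : ↥(R ⊓ cs (S : Set ι)) →ₗ[ℂ] (↥T → ℂ) :=
    (LinearMap.funLeft ℂ ℂ (Subtype.val : ↥T → ι)).comp (R ⊓ cs (S : Set ι)).subtype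
  have hf : Function.Bijective f := by
    constructor
    · rw [injective_iff_map_eq_zero]
      rintro ⟨r, hr1, hr2⟩ h
      refine Subtype.ext (echa_zero pos R r hr1 fun q hq => ?_)
      by_cases hqS : q ∈ S
      · exact congrFun h ⟨q, (hT q).2 ⟨hqS, hq⟩⟩
      · exact hr2 q hqS
    · intro u
      obtain ⟨r, hr, hr1, hr2⟩ := echa_lift pos hpos R S hS (fun q => if h : q ∈ T then u ⟨q, h⟩ else 0)
        (fun q hq => dif_neg fun h => hq ((hT q).1 h).1)
      refine ⟨⟨r, hr, fun q hq => hr1 q hq⟩, funext fun q => ?_⟩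
      have := hr2 q.1 ((hT q.1).1 q.2).2
      rw [dif_pos q.2] at this
      exact this
  rw [(LinearEquiv.ofBijective f hf).finrank_eq, Module.finrank_fintype_fun_eq_card, Fintype.card_coe]

/-- Echelon projection.  `J` = set of `p` such that some `r ∈ R` has `r p ≠ 0` and vanishes at all `q` with `pos p < pos q`.  By induction on `pos`
choose `r_p ∈ R` (`p ∈ J`) with `r_p q = 0` for `pos p < pos q` and `r_p q = δ` on `J`; column `p` of `π` is `r_p` for `p ∈ J`, else `0`.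
An element of `R` vanishing on `J` is zero; `R ⊓ cs S` has the basis `r_p`, `p ∈ J ∩ S`. -/
theorem exists_proj {ι : Type*} [Fintype ι] [DecidableEq ι] (pos : ι → ℤ) (hpos : Function.Injective pos) (R : Submodule ℂ (ι → ℂ)) :
    ∃ π : Matrix ι ι ℂ, (∀ w, π *ᵥ w ∈ R) ∧ (∀ r ∈ R, π *ᵥ r = r) ∧ (∀ p q, pos q < pos p → π p q = 0) ∧
      ∀ S : Finset ι, (∀ p q, pos p ≤ pos q → q ∈ S → p ∈ S) → ∑ p ∈ S, π p p = (finrank ℂ ↥(R ⊓ cs (S : Set ι)) : ℂ) := by
  classical
  have h : ∀ p : ι, ∃ r ∈ R, (∀ q, pos p < pos q → r q = 0) ∧ ∀ q, echa_J pos R q → r q = (Pi.single p (1 : ℂ) : ι → ℂ) q := fun p => by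
    obtain ⟨r, hr, hr1, hr2⟩ := echa_lift pos hpos R (Finset.univ.filter fun q => pos q ≤ pos p)
      (fun a b hab hb => Finset.mem_filter.2 ⟨Finset.mem_univ _, hab.trans (Finset.mem_filter.1 hb).2⟩) (Pi.single p (1 : ℂ))
      (fun q hq => Pi.single_eq_of_ne (fun e => hq (Finset.mem_filter.2 ⟨Finset.mem_univ _, by rw [e]⟩)) _)
    exact ⟨r, hr, fun q hq => hr1 q fun h => absurd (Finset.mem_filter.1 h).2 (not_le.2 hq), hr2⟩
  choose c hc1 hc2 hc3 using h
  have hmul : ∀ w : ι → ℂ, (Matrix.of fun q p => c p q) *ᵥ w = ∑ p, w p • c p := fun w => by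
    ext q
    simp [Matrix.mulVec, dotProduct, Finset.sum_apply, mul_comm]
  have hmem : ∀ w : ι → ℂ, (Matrix.of fun q p => c p q) *ᵥ w ∈ R := fun w => by
    rw [hmul]
    exact R.sum_mem fun p _ => R.smul_mem _ (hc1 p)
  refine ⟨Matrix.of fun q p => c p q, hmem, fun r hr => ?_, fun p q h => hc2 q p h, fun S hS => ?_⟩
  · refine sub_eq_zero.1 (echa_zero pos R _ (R.sub_mem (hmem r) hr) fun q hq => ?_)
    rw [hmul]
    simp only [Pi.sub_apply, Finset.sum_apply, Pi.smul_apply, smul_eq_mul, fun p => hc3 p q hq]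
    rw [Finset.sum_eq_single q (fun b _ hb => by rw [Pi.single_eq_of_ne (Ne.symm hb), mul_zero]) (fun h => absurd (Finset.mem_univ q) h)]
    simp
  · rw [echa_rank pos hpos R S (S.filter fun q => echa_J pos R q) hS (fun q => Finset.mem_filter), Finset.card_filter]
    push_cast
    refine Finset.sum_congr rfl fun p _ => ?_
    simp only [Matrix.of_apply]
    split_ifs with hp
    · rw [hc3 p p hp, Pi.single_eq_same]
    · have : c p = 0 := echa_zero pos R _ (hc1 p) fun q hq => by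
        have hqp : q ≠ p := fun e => hp (e ▸ hq)
        rw [hc3 p q hq, Pi.single_eq_of_ne hqp]
      rw [this]; rfl

/-- `pos (inl i) = if i + 1 = n ∧ a i < 0 then 1 else i - n`, `pos (inr i) = -pos (inl i)`. -/
theorem exists_pos {a : Wt n} (ha : IsDominantIntegral n a) : ∃ pos : L n → ℤ, Function.Injective pos ∧ (∀ p, pos p.swap = -pos p) ∧
    (∀ p q, pos p ≤ pos q → sw a q ≤ sw a p) ∧ (∀ i j, j < i → pos (inl j) < pos (inl i)) ∧
    ∀ i j, i ≠ j → pos (inl j) < pos (inr i) := by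
  obtain ⟨-, h1, h2⟩ := ha
  have H2 : ∀ i : Fin n, (i : ℕ) + 2 ≤ n → 0 ≤ a i := fun i hi => by
    have e1 := h1 i ⟨n - 2, by omega⟩ (by rw [Fin.le_def]; simp only; omega) (by simp only; omega)
    have e2 := h2 ⟨n - 2, by omega⟩ ⟨n - 1, by omega⟩ (by simp only; omega) (by simp only; omega)
    exact ((abs_nonneg _).trans e2).trans e1
  have H1 : ∀ i j : Fin n, (i : ℕ) < j → a j ≤ a i ∧ -a j ≤ a i := fun i j hij => by
    have hj := j.2
    by_cases h : (j : ℕ) + 2 ≤ n
    · have e1 := h1 i j (by rw [Fin.le_def]; omega) h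
      have e2 := H2 j h
      omega
    · have e1 := h1 i ⟨n - 2, by omega⟩ (by rw [Fin.le_def]; simp only; omega) (by simp only; omega)
      have e2 := abs_le.1 (h2 ⟨n - 2, by omega⟩ j (by simp only; omega) (by omega))
      omega
  obtain ⟨f, hf⟩ : ∃ f : Fin n → ℤ, ∀ i : Fin n, ((i : ℕ) + 1 = n ∧ a i < 0 ∧ f i = 1) ∨
      (((i : ℕ) + 1 ≠ n ∨ 0 ≤ a i) ∧ f i = ((i : ℕ) : ℤ) - n) := by
    refine ⟨fun i => if (i : ℕ) + 1 = n ∧ a i < 0 then 1 else ((i : ℕ) : ℤ) - n, fun i => ?_⟩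
    by_cases h : (i : ℕ) + 1 = n ∧ a i < 0
    · exact Or.inl ⟨h.1, h.2, if_pos h⟩
    · exact Or.inr ⟨by omega, if_neg h⟩
  have key : ∀ i j : Fin n, (f i = f j → i = j) ∧ f i ≠ -f j ∧ (f i ≤ f j → a j ≤ a i) ∧ (f i ≤ -f j → -a j ≤ a i) ∧
      (-f i ≤ f j → a j ≤ -a i) ∧ (j < i → f j < f i) ∧ (i ≠ j → f j < -f i) := fun i j => by
    have e1 := hf i
    have e2 := hf j
    have e3 := i.2
    have e4 := j.2
    have e5 := H2 i
    rcases lt_trichotomy (i : ℕ) j with h | h | h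
    · have := H1 i j h
      refine ⟨fun e => Fin.ext (by omega), by omega, by omega, by omega, by omega, fun e => ?_, fun _ => by omega⟩
      rw [Fin.lt_def] at e; omega
    · obtain rfl : i = j := Fin.ext h
      exact ⟨fun _ => rfl, by omega, by omega, by omega, by omega, fun e => absurd e (lt_irrefl _), fun e => absurd rfl e⟩
    · have := H1 j i h
      exact ⟨fun e => Fin.ext (by omega), by omega, by omega, by omega, by omega, fun _ => by omega, fun _ => by omega⟩
  refine ⟨Sum.elim f fun i => -f i, ?_, ?_, ?_, fun i j h => (key i j).2.2.2.2.2.1 h, fun i j h => (key i j).2.2.2.2.2.2 h⟩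
  · rintro (i | i) (j | j) h <;> simp only [Sum.elim_inl, Sum.elim_inr] at h
    · rw [(key i j).1 h]
    · exact absurd h (key i j).2.1
    · exact absurd h.symm (key j i).2.1
    · rw [(key i j).1 (neg_injective h)]
  · rintro (i | i) <;> simp
  · rintro (i | i) (j | j) h <;> simp only [sw, Sum.elim_inl, Sum.elim_inr] at h ⊢
    · exact (key i j).2.2.1 h
    · exact (key i j).2.2.2.1 h
    · exact (key i j).2.2.2.2.1 h
    · exact neg_le_neg ((key j i).2.2.1 (neg_le_neg_iff.1 h))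

/-- `#{q < Lv | 2 q < Lv + s} = (Lv + s) / 2`. -/
theorem sum_level (Lv : ℕ) (s : ℤ) (h1 : |s| ≤ Lv) (h2 : Even ((Lv : ℤ) + s)) :
    ∑ q ∈ Finset.range Lv, ((if 2 * (q : ℤ) < Lv + s then 2 else 0) - 1 : ℤ) = s := by
  obtain ⟨k, hk⟩ := h2
  have h3 := abs_le.1 h1
  have key : ∀ m : ℕ, ∑ q ∈ Finset.range m, ((if 2 * (q : ℤ) < Lv + s then 2 else 0) - 1 : ℤ) = 2 * min (m : ℤ) k - m := by
    intro m
    induction m with
    | zero => simp; omega
    | succ m ih =>
      rw [Finset.sum_range_succ, ih]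
      push_cast
      split_ifs <;> omega
  rw [key]
  omega

end Crest.Agent.R172.HM
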