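import Crest.Agent.R172.HM.Defs

/-! R172/HM/Lin (architect helper44) -/

set_option autoImplicit false
set_option linter.unusedVariables false
open Matrix Sum Module Crest.AlgebraR.SpinSaturation Crest.Agent.R172.W

noncomputable section
namespace Crest.Agent.R172.HM
variable {n : ℕ}

/-- the sum of the generalised eigenspaces with real part at least `c` -/
def upE {E : Type*} [AddCommGroup E] [Module ℂ E] (A : Module.End ℂ E) (c : ℝ) : Submodule ℂ E :=
  ⨆ s : ℂ, ⨆ _ : c ≤ s.re, A.maxGenEigenspace s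

theorem lina_shift {E : Type*} [AddCommGroup E] [Module ℂ E] (A N : Module.End ℂ E) (t : ℂ)
    (h : A * N - N * A = t • N) (s : ℂ) (u : E) (hu : u ∈ A.maxGenEigenspace s) :
    N u ∈ A.maxGenEigenspace (s + t) := by
  rw [Module.End.mem_maxGenEigenspace] at hu ⊢
  obtain ⟨k, hk⟩ := hu
  have h0 : SemiconjBy N (A - s • (1 : Module.End ℂ E)) (A - (s + t) • (1 : Module.End ℂ E)) := by
    have e : A * N = N * A + t • N := by rw [← h]; abel
    simp only [SemiconjBy, mul_sub, sub_mul, mul_smul_comm, smul_mul_assoc, mul_one, one_mul, e, add_smul, add_mul]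
    abel
  refine ⟨k, ?_⟩
  have h1 := (h0.pow_right k).eq
  rw [← Module.End.mul_apply, ← h1, Module.End.mul_apply, hk, map_zero]

theorem lina_mono {E : Type*} [AddCommGroup E] [Module ℂ E] (A : Module.End ℂ E) {c d : ℝ} (h : c ≤ d) :
    upE A d ≤ upE A c :=
  iSup₂_le fun s hs => le_iSup₂_of_le (f := fun (s : ℂ) (_ : c ≤ s.re) => A.maxGenEigenspace s) s (h.trans hs) le_rfl

theorem lina_mem {E : Type*} [AddCommGroup E] [Module ℂ E] (A : Module.End ℂ E) {c : ℝ} {s : ℂ} (h : c ≤ s.re) :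
    A.maxGenEigenspace s ≤ upE A c :=
  le_iSup₂_of_le (f := fun (s : ℂ) (_ : c ≤ s.re) => A.maxGenEigenspace s) s h le_rfl

theorem lina_up {E : Type*} [AddCommGroup E] [Module ℂ E] (A N : Module.End ℂ E) (t : ℂ)
    (h : A * N - N * A = t • N) (d : ℝ) : upE A d ≤ (upE A (d + t.re)).comap N :=
  iSup₂_le fun s hs u hu => lina_mem A (s := s + t) (by simpa using hs) (lina_shift A N t h s u hu)

theorem lina_range {E : Type*} [AddCommGroup E] [Module ℂ E] (A : Module.End ℂ E) {s c : ℂ} (hs : s ≠ c) (k : ℕ) :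
    ∀ u : E, ((A - s • (1 : Module.End ℂ E)) ^ k) u = 0 → u ∈ LinearMap.range (A - c • (1 : Module.End ℂ E)) := by
  induction k with
  | zero => intro u hu; simp only [pow_zero, Module.End.one_apply] at hu; rw [hu]; exact zero_mem _
  | succ k ih =>
    intro u hu
    rw [pow_succ, Module.End.mul_apply] at hu
    have h1 := ih _ hu
    have h2 : (A - c • (1 : Module.End ℂ E)) u ∈ LinearMap.range (A - c • (1 : Module.End ℂ E)) := ⟨u, rfl⟩
    have h3 := sub_mem h2 h1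
    have e : (A - c • (1 : Module.End ℂ E)) u - (A - s • (1 : Module.End ℂ E)) u = (s - c) • u := by
      simp only [LinearMap.sub_apply, LinearMap.smul_apply, Module.End.one_apply, sub_smul]; abel
    rw [e] at h3
    exact (Submodule.smul_mem_iff _ (sub_ne_zero.2 hs)).1 h3

theorem lina_back {E : Type*} [AddCommGroup E] [Module ℂ E] [FiniteDimensional ℂ E] (A : Module.End ℂ E) (c : ℂ) {e : ℝ}
    (he : e ≤ c.re) (v : E) (hv : (A - c • (1 : Module.End ℂ E)) v ∈ upE A e) : v ∈ upE A e := by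
  set f : Module.End ℂ E := A - c • (1 : Module.End ℂ E) with hf
  have hP : upE A e ≤ (upE A e).comap f := by
    have := lina_up A f 0 (by simp [hf, mul_sub, sub_mul]) e
    simpa using this
  have htop : LinearMap.range f ⊔ upE A e = ⊤ := by
    rw [eq_top_iff, ← Module.End.iSup_maxGenEigenspace_eq_top A]
    refine iSup_le fun s => ?_
    by_cases hs : e ≤ s.re
    · exact (lina_mem A hs).trans le_sup_right
    · refine le_trans (fun u hu => ?_) le_sup_left
      obtain ⟨k, hk⟩ := (Module.End.mem_maxGenEigenspace _ _ _).1 hu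
      exact lina_range A (s := s) (c := c) (fun h => hs (by rw [h]; exact he)) k u hk
  have hs : Function.Surjective ((upE A e).mapQ (upE A e) f hP) := by
    intro y
    obtain ⟨y, rfl⟩ := Submodule.Quotient.mk_surjective _ y
    have hy : y ∈ LinearMap.range f ⊔ upE A e := htop ▸ Submodule.mem_top
    obtain ⟨_, ⟨x, rfl⟩, p, hp, rfl⟩ := Submodule.mem_sup.1 hy
    refine ⟨Submodule.Quotient.mk x, ?_⟩
    rw [Submodule.mapQ_apply, Submodule.Quotient.eq]
    simpa using hp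
  have hi := LinearMap.injective_iff_surjective.2 hs
  rw [← Submodule.Quotient.mk_eq_zero]
  apply hi
  rw [Submodule.mapQ_apply, map_zero, Submodule.Quotient.mk_eq_zero]
  exact hv

/-- `N1`, `N2` shift `maxGenEigenspace s` to `s + 1`, `s + 2` (`(A - (s+1))^k N1 = N1 (A - s)^k`).  Decompose `v` along
`iSup_maxGenEigenspace_eq_top` (independent: `independent_maxGenEigenspace`); at a component `s0` of minimal real part the equation reads
`A v0 = c • v0`, so `s0 = c`.  (Alternative: in the quotient by `upE A c.re` the operator `A + N1 + N2 - c` is injective.) -/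
theorem mem_upE {E : Type*} [AddCommGroup E] [Module ℂ E] [FiniteDimensional ℂ E] (A N1 N2 : Module.End ℂ E)
    (h1 : A * N1 - N1 * A = N1) (h2 : A * N2 - N2 * A = (2 : ℂ) • N2) (v : E) (c : ℂ) (hv : (A + N1 + N2) v = c • v) :
    v ∈ upE A c.re := by
  have h0 : ∃ d : ℝ, v ∈ upE A d := by
    have hv' : v ∈ ⨆ s : ℂ, A.maxGenEigenspace s := by
      rw [Module.End.iSup_maxGenEigenspace_eq_top A]; exact Submodule.mem_top
    refine Submodule.iSup_induction _ (motive := fun u => ∃ d : ℝ, u ∈ upE A d) hv' ?_ ⟨0, zero_mem _⟩ ?_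
    · exact fun s u hu => ⟨s.re, lina_mem A le_rfl hu⟩
    · rintro x y ⟨d, hd⟩ ⟨d', hd'⟩
      exact ⟨min d d', add_mem (lina_mono A (min_le_left _ _) hd) (lina_mono A (min_le_right _ _) hd')⟩
  obtain ⟨d, hd⟩ := h0
  have e : (A - c • (1 : Module.End ℂ E)) v = -(N1 v + N2 v) := by
    simp only [LinearMap.add_apply] at hv
    simp only [LinearMap.sub_apply, LinearMap.smul_apply, Module.End.one_apply, ← hv]; abel
  have hk : ∀ k : ℕ, v ∈ upE A (min (d + k) c.re) := by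
    intro k
    induction k with
    | zero => exact lina_mono A (by simp) hd
    | succ k ih =>
      refine lina_back A c (min_le_right _ _) v ?_
      rw [e]
      have a1 := lina_up A N1 1 (by simpa using h1) _ ih
      have a2 := lina_up A N2 2 h2 _ ih
      have b : min (d + ((k + 1 : ℕ) : ℝ)) c.re ≤ min (d + k) c.re + 1 := by
        push_cast
        rcases le_total (d + k) c.re with h | h
        · rw [min_eq_left h]; exact (min_le_left _ _).trans (by linarith)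
        · rw [min_eq_right h]; exact (min_le_right _ _).trans (by linarith)
      refine neg_mem (add_mem (lina_mono A ?_ a1) (lina_mono A ?_ a2))
      · simpa using b
      · have : (2 : ℂ).re = 2 := by simp
        rw [this]; linarith
  obtain ⟨k, hk'⟩ := exists_nat_ge (c.re - d)
  have := hk k
  rwa [min_eq_right (by linarith)] at this

theorem linb_aux {E1 E2 E3 : Type*} [AddCommGroup E1] [Module ℂ E1] [AddCommGroup E2] [Module ℂ E2] [AddCommGroup E3] [Module ℂ E3]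
    (N1 : Module.End ℂ E1) (N2 : Module.End ℂ E2) (N3 : Module.End ℂ E3) (B : E1 →ₗ[ℂ] E2 →ₗ[ℂ] E3 →ₗ[ℂ] ℂ) (s : ℂ) (hs : s ≠ 0)
    (hB : ∀ u1 u2 u3, B (N1 u1) u2 u3 + B u1 (N2 u2) u3 + B u1 u2 (N3 u3) + s * B u1 u2 u3 = 0) :
    ∀ (m k1 k2 k3 : ℕ), k1 + k2 + k3 = m → ∀ u1 u2 u3, (N1 ^ k1) u1 = 0 → (N2 ^ k2) u2 = 0 → (N3 ^ k3) u3 = 0 →
      B u1 u2 u3 = 0 := by
  intro m
  induction m using Nat.strong_induction_on with
  | _ m ih =>
    intro k1 k2 k3 hm u1 u2 u3 h1 h2 h3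
    rcases k1 with _ | k1
    · simp only [pow_zero, Module.End.one_apply] at h1; simp [h1]
    rcases k2 with _ | k2
    · simp only [pow_zero, Module.End.one_apply] at h2; simp [h2]
    rcases k3 with _ | k3
    · simp only [pow_zero, Module.End.one_apply] at h3; simp [h3]
    have e1 : B (N1 u1) u2 u3 = 0 :=
      ih _ (by omega) k1 (k2 + 1) (k3 + 1) rfl _ _ _ (by rw [pow_succ, Module.End.mul_apply] at h1; exact h1) h2 h3
    have e2 : B u1 (N2 u2) u3 = 0 :=
      ih _ (by omega) (k1 + 1) k2 (k3 + 1) rfl _ _ _ h1 (by rw [pow_succ, Module.End.mul_apply] at h2; exact h2) h3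
    have e3 : B u1 u2 (N3 u3) = 0 :=
      ih _ (by omega) (k1 + 1) (k2 + 1) k3 rfl _ _ _ h1 h2 (by rw [pow_succ, Module.End.mul_apply] at h3; exact h3)
    have := hB u1 u2 u3
    rw [e1, e2, e3] at this
    simpa [hs] using this

/-- induction on the sum of the three exponents: `(s1 + s2 + s3) B u1 u2 u3 = -B ((A1 - s1) u1) u2 u3 - …`. -/
theorem tri_gen {E1 E2 E3 : Type*} [AddCommGroup E1] [Module ℂ E1] [AddCommGroup E2] [Module ℂ E2] [AddCommGroup E3] [Module ℂ E3]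
    (A1 : Module.End ℂ E1) (A2 : Module.End ℂ E2) (A3 : Module.End ℂ E3) (B : E1 →ₗ[ℂ] E2 →ₗ[ℂ] E3 →ₗ[ℂ] ℂ)
    (hB : ∀ u1 u2 u3, B (A1 u1) u2 u3 + B u1 (A2 u2) u3 + B u1 u2 (A3 u3) = 0) (s1 s2 s3 : ℂ) (hs : s1 + s2 + s3 ≠ 0)
    (u1 : E1) (u2 : E2) (u3 : E3) (h1 : u1 ∈ A1.maxGenEigenspace s1) (h2 : u2 ∈ A2.maxGenEigenspace s2)
    (h3 : u3 ∈ A3.maxGenEigenspace s3) : B u1 u2 u3 = 0 := by
  obtain ⟨k1, h1⟩ := (Module.End.mem_maxGenEigenspace _ _ _).1 h1
  obtain ⟨k2, h2⟩ := (Module.End.mem_maxGenEigenspace _ _ _).1 h2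
  obtain ⟨k3, h3⟩ := (Module.End.mem_maxGenEigenspace _ _ _).1 h3
  refine linb_aux (A1 - s1 • 1) (A2 - s2 • 1) (A3 - s3 • 1) B (s1 + s2 + s3) hs ?_ _ k1 k2 k3 rfl u1 u2 u3 h1 h2 h3
  intro v1 v2 v3
  have := hB v1 v2 v3
  simp only [LinearMap.sub_apply, LinearMap.smul_apply, Module.End.one_apply, map_sub, map_smul, smul_eq_mul]
  linear_combination this

/-- `Submodule.iSup_induction` three times, `tri_gen`. -/
theorem tri_up {E1 E2 E3 : Type*} [AddCommGroup E1] [Module ℂ E1] [AddCommGroup E2] [Module ℂ E2] [AddCommGroup E3] [Module ℂ E3]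
    (A1 : Module.End ℂ E1) (A2 : Module.End ℂ E2) (A3 : Module.End ℂ E3) (B : E1 →ₗ[ℂ] E2 →ₗ[ℂ] E3 →ₗ[ℂ] ℂ)
    (hB : ∀ u1 u2 u3, B (A1 u1) u2 u3 + B u1 (A2 u2) u3 + B u1 u2 (A3 u3) = 0) (c1 c2 c3 : ℝ) (hc : 0 < c1 + c2 + c3)
    (u1 : E1) (u2 : E2) (u3 : E3) (h1 : u1 ∈ upE A1 c1) (h2 : u2 ∈ upE A2 c2) (h3 : u3 ∈ upE A3 c3) : B u1 u2 u3 = 0 := by
  have k1 : upE A1 c1 ≤ LinearMap.ker ((B.flip u2).flip u3) := by
    refine iSup_le fun s1 => iSup_le fun hs1 => fun v1 hv1 => ?_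
    have k2 : upE A2 c2 ≤ LinearMap.ker ((B v1).flip u3) := by
      refine iSup_le fun s2 => iSup_le fun hs2 => fun v2 hv2 => ?_
      have k3 : upE A3 c3 ≤ LinearMap.ker (B v1 v2) := by
        refine iSup_le fun s3 => iSup_le fun hs3 => fun v3 hv3 => ?_
        refine tri_gen A1 A2 A3 B hB s1 s2 s3 (fun h => ?_) v1 v2 v3 hv1 hv2 hv3
        have := congrArg Complex.re h
        simp only [Complex.add_re, Complex.zero_re] at this
        linarith
      exact k3 h3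
    exact k2 h2
  exact k1 h1

theorem linc_skew (x : soD n) (u v : L n → ℂ) :
    bf u ((x : Matrix (L n) (L n) ℂ) *ᵥ v) = -bf ((x : Matrix (L n) (L n) ℂ) *ᵥ u) v := by
  have hx := mem_typeD.1 x.2
  simp only [bf, Matrix.mulVec, dotProduct, Finset.mul_sum, Finset.sum_mul, ← Finset.sum_neg_distrib]
  rw [Finset.sum_comm, ← Equiv.sum_comp (Equiv.sumComm (Fin n) (Fin n))]
  refine Finset.sum_congr rfl fun q _ => Finset.sum_congr rfl fun p _ => ?_
  rw [hx q p]
  simp only [Equiv.sumComm_apply]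
  ring

/-- `y = z' - z` kills `R`, maps `perp R` to `R`; `y2 = ⁅z, y⁆ - y`, `y1 = y - y2`.  `(z + 1) w ∈ perp R` and `y w ∈ perp R` for all `w` (skewness);
`y2` kills `perp R` and has values in `R`, so `z y2 = y2` and `y2 (z + 1) = 0`. -/
theorem inX_split {R : Submodule ℂ (L n → ℂ)} (hR : R ≤ perp R) {z z' : soD n} (h : InX z R) (h' : InX z' R) :
    ∃ y1 y2 : soD n, z' = z + y1 + y2 ∧ ⁅z, y1⁆ = y1 ∧ ⁅z, y2⁆ = (2 : ℂ) • y2 := by
  obtain ⟨y, hy⟩ : ∃ y : soD n, y = z' - z := ⟨_, rfl⟩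
  have hyc : (y : Matrix (L n) (L n) ℂ) = (z' : Matrix (L n) (L n) ℂ) - (z : Matrix (L n) (L n) ℂ) := by rw [hy]; rfl
  have y0 : ∀ r ∈ R, (y : Matrix (L n) (L n) ℂ) *ᵥ r = 0 := fun r hr => by
    rw [hyc, Matrix.sub_mulVec, h.1 r hr, h'.1 r hr, sub_self]
  have y1 : ∀ w ∈ perp R, (y : Matrix (L n) (L n) ℂ) *ᵥ w ∈ R := fun w hw => by
    rw [hyc, Matrix.sub_mulVec]; exact R.sub_mem (h'.2 w hw) (h.2 w hw)
  have y2 : ∀ w, (y : Matrix (L n) (L n) ℂ) *ᵥ w ∈ perp R := fun w r hr => by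
    rw [linc_skew, y0 r hr]; simp [bf]
  have z1 : ∀ w, (z : Matrix (L n) (L n) ℂ) *ᵥ w + w ∈ perp R := fun w r hr => by
    have e := linc_skew z r w
    rw [h.1 r hr] at e
    simp only [bf, Pi.add_apply, mul_add, Finset.sum_add_distrib] at e ⊢
    rw [e, neg_add_cancel]
  obtain ⟨u, hu⟩ : ∃ u : soD n, u = ⁅z, y⁆ - y := ⟨_, rfl⟩
  have huc : ∀ w, (u : Matrix (L n) (L n) ℂ) *ᵥ w = (z : Matrix (L n) (L n) ℂ) *ᵥ ((y : Matrix (L n) (L n) ℂ) *ᵥ w) -
      (y : Matrix (L n) (L n) ℂ) *ᵥ ((z : Matrix (L n) (L n) ℂ) *ᵥ w + w) := fun w => by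
    have e : (u : Matrix (L n) (L n) ℂ) = (z : Matrix (L n) (L n) ℂ) * (y : Matrix (L n) (L n) ℂ) -
        (y : Matrix (L n) (L n) ℂ) * (z : Matrix (L n) (L n) ℂ) - (y : Matrix (L n) (L n) ℂ) := by rw [hu]; rfl
    rw [e, Matrix.sub_mulVec, Matrix.sub_mulVec, Matrix.mulVec_add, Matrix.mulVec_mulVec, Matrix.mulVec_mulVec, sub_sub]
  have u0 : ∀ w ∈ perp R, (u : Matrix (L n) (L n) ℂ) *ᵥ w = 0 := fun w hw => by
    rw [huc, Matrix.mulVec_add, h.1 _ (y1 w hw), y0 _ (h.2 w hw), zero_add, sub_self]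
  have u1 : ∀ w, (u : Matrix (L n) (L n) ℂ) *ᵥ w ∈ R := fun w => by
    rw [huc]; exact R.sub_mem (h.2 _ (y2 w)) (y1 _ (z1 w))
  have hzu : ⁅z, u⁆ = (2 : ℂ) • u := by
    apply Subtype.ext
    have e : ((⁅z, u⁆ : soD n) : Matrix (L n) (L n) ℂ) = (z : Matrix (L n) (L n) ℂ) * (u : Matrix (L n) (L n) ℂ) -
        (u : Matrix (L n) (L n) ℂ) * (z : Matrix (L n) (L n) ℂ) := rfl
    have e2 : (((2 : ℂ) • u : soD n) : Matrix (L n) (L n) ℂ) = (2 : ℂ) • (u : Matrix (L n) (L n) ℂ) := rfl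
    rw [e, e2]
    refine Matrix.toLin'.injective (LinearMap.ext fun w => ?_)
    have e3 := u0 _ (z1 w)
    rw [Matrix.mulVec_add] at e3
    rw [Matrix.toLin'_apply, Matrix.toLin'_apply, Matrix.sub_mulVec, ← Matrix.mulVec_mulVec, ← Matrix.mulVec_mulVec, h.1 _ (u1 w),
      Matrix.smul_mulVec, eq_neg_of_add_eq_zero_left e3, sub_neg_eq_add, two_smul]
  refine ⟨y - u, u, by rw [hy]; abel, ?_, hzu⟩
  have e : ⁅z, y⁆ = u + y := by rw [hu]; abel
  rw [lie_sub, hzu, e, two_smul]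
  abel

end Crest.Agent.R172.HM
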