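import Crest.Agent.R172.HM.Conj

/-! R172/HM/Span (architect helper44) -/

set_option autoImplicit false
set_option linter.unusedVariables false
open Matrix Sum Module Crest.AlgebraR.SpinSaturation Crest.Agent.R172.W

noncomputable section
namespace Crest.Agent.R172.HM
variable {n : ℕ}

/-- for `φ` vanishing on `S`, `s ↦ φ (exp (s • N) u)` is a polynomial in `s` (`exp_eq_sum`) vanishing on `ℂ`; take the coefficient `1`. -/
theorem stab_of_exp {E : Type*} [AddCommGroup E] [Module ℂ E] (N : Module.End ℂ E) (hN : IsNilpotent N) (S : Submodule ℂ E)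
    (h : ∀ s : ℂ, ∀ u ∈ S, IsNilpotent.exp (s • N) u ∈ S) : ∀ u ∈ S, N u ∈ S := by
  intro u hu
  obtain ⟨k, hk⟩ := hN
  have hk2 : N ^ (k + 2) = 0 := by rw [pow_add, hk, zero_mul]
  rw [← Subspace.forall_mem_dualAnnihilator_apply_eq_zero_iff]
  intro φ hφ
  have hφ' : ∀ x ∈ S, φ x = 0 := (Submodule.mem_dualAnnihilator φ).1 hφ
  have hp : (∑ i ∈ Finset.range (k + 2), Polynomial.monomial i (((i.factorial : ℂ))⁻¹ * φ ((N ^ i) u)) : Polynomial ℂ) = 0 := by
    apply Polynomial.funext
    intro s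
    have h1 := hφ' _ (h s u hu)
    have hs : (s • N) ^ (k + 2) = 0 := by rw [smul_pow, hk2, smul_zero]
    rw [IsNilpotent.exp_eq_sum hs, LinearMap.sum_apply, map_sum] at h1
    rw [Polynomial.eval_finset_sum, Polynomial.eval_zero, ← h1]
    refine Finset.sum_congr rfl fun i _ => ?_
    rw [Polynomial.eval_monomial, ← Rat.cast_smul_eq_qsmul ℂ, smul_pow, LinearMap.smul_apply, LinearMap.smul_apply, map_smul, map_smul]
    simp only [smul_eq_mul, Rat.cast_inv, Rat.cast_natCast]
    ring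
  have h1 := congrArg (fun p : Polynomial ℂ => p.coeff 1) hp
  simp only [Polynomial.finset_sum_coeff, Polynomial.coeff_monomial, Polynomial.coeff_zero] at h1
  rw [Finset.sum_ite_eq' (Finset.range (k + 2)) 1] at h1
  simpa using h1

theorem spanb_exists (hn : 2 ≤ n) (p : L n) : ∃ q : L n, q ≠ p ∧ q ≠ p.swap := by
  have hex : ∀ i : Fin n, ∃ j : Fin n, j ≠ i := fun i => by
    have : Nontrivial (Fin n) := Fin.nontrivial_iff_two_le.2 hn
    exact exists_ne i
  rcases p with i | i
  · obtain ⟨j, hj⟩ := hex i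
    exact ⟨inl j, by simpa using hj, by simp⟩
  · obtain ⟨j, hj⟩ := hex i
    exact ⟨inr j, by simpa using hj, by simp⟩

theorem spanb_br {p q : L n} (h1 : q ≠ p) (h2 : q ≠ p.swap) : ⁅X p q, X q p⁆ = X p p - X q q := by
  rw [X_comm, if_pos rfl, if_pos rfl, if_neg h2, if_neg (Ne.symm h2), sub_zero, sub_zero]

/-- `X_span`; `2 • X p p = ⁅X p q, X q p⁆ + ⁅X p q.swap, X q.swap p⁆` for any `q ∉ {p, p.swap}` (`X_comm`, `X_skew`; `2 ≤ n`), `H.lie`. -/
theorem HWR.stab_all {a : Wt n} (hn : 2 ≤ n) (H : HWR n a) (S : Submodule ℂ H.E)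
    (h : ∀ p q : L n, p ≠ q → ∀ u ∈ S, H.ρ (X p q) u ∈ S) : ∀ z, ∀ u ∈ S, H.ρ z u ∈ S := by
  have hb : ∀ p q : L n, q ≠ p → ∀ u ∈ S, H.ρ ⁅X p q, X q p⁆ u ∈ S := fun p q hq u hu => by
    rw [H.lie, LinearMap.sub_apply, Module.End.mul_apply, Module.End.mul_apply]
    exact S.sub_mem (h p q hq.symm _ (h q p hq u hu)) (h q p hq _ (h p q hq.symm u hu))
  have hd : ∀ p : L n, ∀ u ∈ S, H.ρ (X p p) u ∈ S := fun p u hu => by
    obtain ⟨q, h1, h2⟩ := spanb_exists hn p
    have h3 : q.swap ≠ p := fun e => h2 (by rw [← e, Sum.swap_swap])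
    have h4 : q.swap ≠ p.swap := fun e => h1 (by simpa using congrArg Sum.swap e)
    have e : X p p = (1 / 2 : ℂ) • (⁅X p q, X q p⁆ + ⁅X p q.swap, X q.swap p⁆) := by
      rw [spanb_br h1 h2, spanb_br h3 h4, X_skew q.swap q.swap, Sum.swap_swap]
      have : X p p - X q q + (X p p - -X q q) = (2 : ℂ) • X p p := by rw [two_smul]; abel
      rw [this, smul_smul]; norm_num
    rw [e, map_smul, map_add, LinearMap.smul_apply, LinearMap.add_apply]
    exact S.smul_mem _ (S.add_mem (hb p q h1 u hu) (hb p q.swap h3 u hu))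
  intro z u hu
  rw [X_span z, map_sum, LinearMap.sum_apply]
  refine S.sum_mem fun p _ => ?_
  rw [map_sum, LinearMap.sum_apply]
  refine S.sum_mem fun q _ => ?_
  rw [map_smul, LinearMap.smul_apply]
  refine S.smul_mem _ ?_
  by_cases hpq : p = q
  · subst hpq; exact hd p u hu
  · exact h p q hpq u hu

/-- `H.gen`, `stab_all`, `stab_of_exp` (put a letter in front of the word), `H.nil`; the empty word gives `H.v`. -/
theorem HWR.span_act {a : Wt n} (hn : 2 ≤ n) (H : HWR n a) :
    Submodule.span ℂ {u | ∃ w : List ((L n × L n) × ℂ), Roots w ∧ u = H.act w id H.v} = ⊤ := by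
  apply H.gen
  · apply Submodule.subset_span
    exact ⟨[], fun x hx => absurd hx List.not_mem_nil, by simp [HWR.act]⟩
  · apply H.stab_all hn
    intro p q hpq
    apply stab_of_exp _ (H.nil hpq)
    intro s u hu
    induction hu using Submodule.span_induction with
    | mem x hx =>
      obtain ⟨w, hw, rfl⟩ := hx
      apply Submodule.subset_span
      refine ⟨((p, q), s) :: w, ?_, ?_⟩
      · intro x hx
        rcases List.mem_cons.1 hx with rfl | hx
        · exact hpq
        · exact hw x hx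
      · simp only [HWR.act, List.map_cons, List.prod_cons, Module.End.mul_apply, id]
    | zero => rw [map_zero]; exact Submodule.zero_mem _
    | add x y _ _ hx hy => rw [map_add]; exact Submodule.add_mem _ hx hy
    | smul c x _ hx => rw [map_smul]; exact Submodule.smul_mem _ c hx

theorem spanc_cons {a : Wt n} (H : HWR n a) {σ : Type} (x : (L n × L n) × σ) (u : List ((L n × L n) × σ)) (t : σ → ℂ) :
    H.act (x :: u) t = IsNilpotent.exp (t x.2 • H.ρ (X x.1.1 x.1.2)) * H.act u t := by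
  simp only [HWR.act, List.map_cons, List.prod_cons]

/-- induction on the sublist relation (generalise `w`): a skipped letter gets the value `0` (`exp_zero`), a kept letter its scalar;
`H.act u t` only depends on `t` on the variables of `u`. -/
theorem HWR.act_sub {a : Wt n} (H : HWR n a) {σ : Type} (u : List ((L n × L n) × σ)) (hu : (u.map Prod.snd).Nodup)
    (w : List ((L n × L n) × ℂ)) (hw : (w.map Prod.fst).Sublist (u.map Prod.fst)) :
    ∃ t0 : σ → ℂ, ∀ t : σ → ℂ, (∀ j ∈ u.map Prod.snd, t j = t0 j) → H.act u t = H.act w id := by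
  classical
  induction u generalizing w with
  | nil =>
    have : w = [] := by simpa using hw
    subst this
    exact ⟨fun _ => 0, fun t _ => rfl⟩
  | cons x u ih =>
    rw [List.map_cons, List.nodup_cons] at hu
    obtain ⟨hx, hu⟩ := hu
    rw [List.map_cons, List.sublist_cons_iff] at hw
    rcases hw with hw | ⟨r, hr, hw⟩
    · obtain ⟨t0, ht0⟩ := ih hu w hw
      refine ⟨Function.update t0 x.2 0, fun t ht => ?_⟩
      have h1 : t x.2 = 0 := by
        rw [ht x.2 (by simp)]; simp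
      have h2 : H.act u t = H.act w id := by
        refine ht0 t fun j hj => ?_
        rw [ht j (by rw [List.map_cons]; exact List.mem_cons_of_mem _ hj)]
        have : j ≠ x.2 := fun e => hx (e ▸ hj)
        simp [Function.update_of_ne this]
      rw [spanc_cons, h1, h2, zero_smul, IsNilpotent.exp_zero, one_mul]
    · cases w with
      | nil => simp at hr
      | cons y w =>
        rw [List.map_cons, List.cons.injEq] at hr
        obtain ⟨hy, hr⟩ := hr
        subst hr
        obtain ⟨t0, ht0⟩ := ih hu w hw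
        refine ⟨Function.update t0 x.2 y.2, fun t ht => ?_⟩
        have h1 : t x.2 = y.2 := by
          rw [ht x.2 (by simp)]; simp
        have h2 : H.act u t = H.act w id := by
          refine ht0 t fun j hj => ?_
          rw [ht j (by rw [List.map_cons]; exact List.mem_cons_of_mem _ hj)]
          have : j ≠ x.2 := fun e => hx (e ▸ hj)
          simp [Function.update_of_ne this]
        rw [spanc_cons, spanc_cons, h1, h2, hy]
        rfl

/-- induction on the word, for all `φ` at once: `φ ∘ exp (s • N) = ∑ k < K, s ^ k • ((k!)⁻¹ • φ ∘ N ^ k)`. -/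
theorem HWR.act_poly {a : Wt n} (H : HWR n a) {σ : Type} (u : List ((L n × L n) × σ)) (hu : Roots u) (φ : Module.Dual ℂ H.E) (x : H.E) :
    ∃ f : MvPolynomial σ ℂ, ∀ t, φ (H.act u t x) = MvPolynomial.eval t f := by
  induction u generalizing φ with
  | nil => exact ⟨MvPolynomial.C (φ x), fun t => by simp [HWR.act]⟩
  | cons y u ih =>
    obtain ⟨K, hK⟩ := H.nil (hu y List.mem_cons_self)
    have ih' := fun ψ => ih (fun z hz => hu z (List.mem_cons_of_mem _ hz)) ψ
    choose g hg using ih'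
    refine ⟨∑ k ∈ Finset.range K, MvPolynomial.C ((k.factorial : ℂ)⁻¹) * MvPolynomial.X y.2 ^ k *
      g (φ ∘ₗ (H.ρ (X y.1.1 y.1.2) ^ k)), fun t => ?_⟩
    have h0 : (t y.2 • H.ρ (X y.1.1 y.1.2)) ^ K = 0 := by rw [smul_pow, hK, smul_zero]
    have e : H.act (y :: u) t x = IsNilpotent.exp (t y.2 • H.ρ (X y.1.1 y.1.2)) (H.act u t x) := by
      simp [HWR.act]
    rw [e, IsNilpotent.exp_eq_sum h0, LinearMap.sum_apply, map_sum, map_sum]
    refine Finset.sum_congr rfl fun k _ => ?_
    rw [← Rat.cast_smul_eq_qsmul ℂ, smul_pow]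
    simp [← hg, mul_assoc]

/-- expand the first two arguments in bases (`Module.finBasis`, `Basis.sum_repr`). -/
theorem tri_poly {E1 E2 E3 : Type*} [AddCommGroup E1] [Module ℂ E1] [FiniteDimensional ℂ E1] [AddCommGroup E2] [Module ℂ E2]
    [FiniteDimensional ℂ E2] [AddCommGroup E3] [Module ℂ E3] {σ : Type} (B : E1 →ₗ[ℂ] E2 →ₗ[ℂ] E3 →ₗ[ℂ] ℂ)
    (F1 : (σ → ℂ) → E1) (F2 : (σ → ℂ) → E2) (F3 : (σ → ℂ) → E3)
    (h1 : ∀ φ : Module.Dual ℂ E1, ∃ f : MvPolynomial σ ℂ, ∀ t, φ (F1 t) = MvPolynomial.eval t f)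
    (h2 : ∀ φ : Module.Dual ℂ E2, ∃ f : MvPolynomial σ ℂ, ∀ t, φ (F2 t) = MvPolynomial.eval t f)
    (h3 : ∀ φ : Module.Dual ℂ E3, ∃ f : MvPolynomial σ ℂ, ∀ t, φ (F3 t) = MvPolynomial.eval t f) :
    ∃ f : MvPolynomial σ ℂ, ∀ t, B (F1 t) (F2 t) (F3 t) = MvPolynomial.eval t f := by
  choose g1 hg1 using h1
  choose g2 hg2 using h2
  choose g3 hg3 using h3
  let b1 := Module.finBasis ℂ E1
  let b2 := Module.finBasis ℂ E2
  refine ⟨∑ i, ∑ j, g1 (b1.coord i) * g2 (b2.coord j) * g3 (B (b1 i) (b2 j)), fun t => ?_⟩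
  conv_lhs => rw [← b1.sum_repr (F1 t), ← b2.sum_repr (F2 t)]
  simp only [map_sum, map_smul, LinearMap.sum_apply, LinearMap.smul_apply, smul_eq_mul, map_mul, ← hg1, ← hg2, ← hg3,
    Basis.coord_apply, Finset.mul_sum]
  rw [Finset.sum_comm]
  exact Finset.sum_congr rfl fun i _ => Finset.sum_congr rfl fun j _ => by ring

end Crest.Agent.R172.HM
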