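import Crest.Agent.R172.HM.Defs

/-! R172/HM/Sup (architect helper44) -/

set_option autoImplicit false
set_option linter.unusedVariables false
open Matrix Sum Module Crest.AlgebraR.SpinSaturation Crest.Agent.R172.W

noncomputable section
namespace Crest.Agent.R172.HM
variable {n : ℕ}

theorem bf_comm (u v : L n → ℂ) : bf u v = bf v u := by
  unfold bf
  rw [← Equiv.sum_comp (Equiv.sumComm (Fin n) (Fin n))]
  refine Finset.sum_congr rfl fun p _ => ?_
  simp [mul_comm]

/-- the form `bf` as a bilinear form -/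
def supa_B (n : ℕ) : LinearMap.BilinForm ℂ (L n → ℂ) :=
  LinearMap.mk₂ ℂ bf
    (fun u u' v => by simp only [bf, Pi.add_apply, add_mul, Finset.sum_add_distrib])
    (fun c u v => by simp only [bf, Pi.smul_apply, smul_eq_mul, mul_assoc, Finset.mul_sum])
    (fun u v v' => by simp only [bf, Pi.add_apply, mul_add, Finset.sum_add_distrib])
    (fun c u v => by simp only [bf, Pi.smul_apply, smul_eq_mul, mul_left_comm _ c, Finset.mul_sum])

theorem supa_B_apply (u v : L n → ℂ) : supa_B n u v = bf u v := rfl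

theorem supa_sep (u : L n → ℂ) (h : ∀ v, bf u v = 0) : u = 0 := by
  funext p
  have := h (Pi.single p.swap 1)
  unfold bf at this
  rw [Finset.sum_eq_single p] at this
  · simpa using this
  · intro q _ hq
    have : q.swap ≠ p.swap := fun e => hq (by simpa using congrArg Sum.swap e)
    simp [this]
  · simp

theorem supa_nondeg : (supa_B n).Nondegenerate :=
  ⟨fun u h => supa_sep u h, fun v h => supa_sep v fun u => by rw [bf_comm]; exact h u⟩

theorem supa_refl : (supa_B n).IsRefl := fun u v h => by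
  rw [supa_B_apply] at h ⊢; rw [bf_comm]; exact h

theorem supa_perp_eq (R : Submodule ℂ (L n → ℂ)) : perp R = (supa_B n).orthogonal R := by
  ext w
  rw [mem_perp, LinearMap.BilinForm.mem_orthogonal_iff]
  rfl

/-- `perp R` is `LinearMap.BilinForm.orthogonal` for the non-degenerate symmetric form `bf` (`finrank_orthogonal`). -/
theorem finrank_perp (R : Submodule ℂ (L n → ℂ)) : finrank ℂ (perp R) + finrank ℂ R = 2 * n := by
  have h := LinearMap.BilinForm.finrank_orthogonal supa_nondeg R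
  rw [supa_perp_eq, h]
  have h2 : finrank ℂ R ≤ finrank ℂ (L n → ℂ) := Submodule.finrank_le R
  have h3 : finrank ℂ (L n → ℂ) = 2 * n := by simp [two_mul]
  omega

theorem perp_sup (R R' : Submodule ℂ (L n → ℂ)) : perp (R ⊔ R') = perp R ⊓ perp R' := by
  ext w
  simp only [Submodule.mem_inf, mem_perp]
  constructor
  · intro h
    exact ⟨fun r hr => h r (Submodule.mem_sup_left hr), fun r hr => h r (Submodule.mem_sup_right hr)⟩
  · rintro ⟨h1, h2⟩ r hr
    obtain ⟨y, hy, z, hz, rfl⟩ := Submodule.mem_sup.1 hr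
    have e : bf (y + z) w = bf y w + bf z w := by
      simp only [bf, Pi.add_apply, add_mul, Finset.sum_add_distrib]
    rw [e, h1 y hy, h2 z hz, add_zero]

theorem perp_perp (R : Submodule ℂ (L n → ℂ)) : perp (perp R) = R := by
  symm
  apply Submodule.eq_of_le_of_finrank_eq
  · intro r hr w hw
    rw [bf_comm]; exact hw r hr
  · have h1 := finrank_perp R
    have h2 := finrank_perp (perp R)
    omega

theorem supb_bf_single (p : L n) (w : L n → ℂ) : bf (Pi.single p 1) w = w p.swap := by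
  classical
  simp [bf, Pi.single_apply]

theorem supb_perp_cs (S : Set (L n)) : perp (cs S) = cs {p : L n | p.swap ∉ S} := by
  classical
  ext w
  rw [mem_perp, mem_cs]
  constructor
  · intro h p hp
    have hp' : p.swap ∈ S := by simpa using hp
    have := h (Pi.single p.swap 1) (mem_cs.2 fun x hx => by
      rw [Pi.single_apply, if_neg]; rintro rfl; exact hx hp')
    rw [supb_bf_single] at this
    simpa using this
  · intro h r hr
    refine Finset.sum_eq_zero fun p _ => ?_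
    by_cases hp : p ∈ S
    · rw [h p.swap (by simpa using hp), mul_zero]
    · rw [mem_cs.1 hr p hp, zero_mul]

theorem supb_perp_map {g : Matrix (L n) (L n) ℂ} (hg : Orth g) (S : Submodule ℂ (L n → ℂ)) :
    perp (S.map g.mulVecLin) = (perp S).map g.mulVecLin := by
  classical
  ext w
  constructor
  · intro h
    obtain ⟨w', rfl⟩ := (Matrix.mulVec_surjective_iff_isUnit.2 hg.1) w
    refine ⟨w', mem_perp.2 fun r hr => ?_, rfl⟩
    rw [← hg.2]
    exact mem_perp.1 h _ ⟨r, hr, rfl⟩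
  · rintro ⟨w', hw', rfl⟩
    refine mem_perp.2 ?_
    rintro _ ⟨r, hr, rfl⟩
    simp only [Matrix.mulVecLin_apply]
    rw [hg.2]
    exact mem_perp.1 hw' r hr

theorem supb_sw_swap (a : Wt n) (p : L n) : sw a p.swap = - sw a p := by
  rcases p with i | i <;> simp [sw]

theorem supb_sw_even {a : Wt n} {Lv : ℕ} (hL : Fit a Lv) (p : L n) : Even ((Lv : ℤ) + sw a p) := by
  rcases p with i | i
  · simpa [sw] using (hL i).2
  · obtain ⟨k, hk⟩ := (hL i).2
    exact ⟨k - a i, by simp only [sw, Sum.elim_inr]; omega⟩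

/-- for `g = 1` both sides are coordinate subspaces (parity of `Lv + sw a p`, `sw a p.swap = -sw a p`); transport by `hg`. -/
theorem perp_Fq {g : Matrix (L n) (L n) ℂ} (hg : Orth g) {a : Wt n} {Lv q : ℕ} (hL : Fit a Lv) (hq : q < Lv) :
    perp (Fq g a Lv q) = Fq g a Lv (Lv - 1 - q) := by
  unfold Fq
  rw [supb_perp_map hg, supb_perp_cs]
  congr 2
  ext p
  obtain ⟨k, hk⟩ := supb_sw_even hL p
  simp only [Set.mem_ofPred_eq, supb_sw_swap]
  omega

/-- `perp R ⊓ Fq q = perp (R ⊔ Fq (Lv - 1 - q))`, dimension formula, `Finset.sum_range_reflect`,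
`finrank (Fq q) + finrank (Fq (Lv - 1 - q)) = 2 n`. -/
theorem deg2_perp {g : Matrix (L n) (L n) ℂ} (hg : Orth g) {a : Wt n} {Lv : ℕ} (hL : Fit a Lv) (R : Submodule ℂ (L n → ℂ)) :
    deg2 g a Lv (perp R) = deg2 g a Lv R := by
  have key : ∀ q ∈ Finset.range Lv,
      (2 * (finrank ℂ ↥(perp R ⊓ Fq g a Lv q) : ℤ) - (finrank ℂ (perp R) : ℤ)) =
        (2 * (finrank ℂ ↥(R ⊓ Fq g a Lv (Lv - 1 - q)) : ℤ) - (finrank ℂ R : ℤ)) +
          ((finrank ℂ (Fq g a Lv q) : ℤ) - (finrank ℂ (Fq g a Lv (Lv - 1 - q)) : ℤ)) := by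
    intro q hq
    have hq' : q < Lv := Finset.mem_range.1 hq
    have h1 : perp (Fq g a Lv (Lv - 1 - q)) = Fq g a Lv q := by
      rw [perp_Fq hg hL (by omega)]
      congr 1
      omega
    have h2 := finrank_perp (R ⊔ Fq g a Lv (Lv - 1 - q))
    rw [perp_sup, h1] at h2
    have h3 := finrank_perp (Fq g a Lv (Lv - 1 - q))
    rw [h1] at h3
    have h4 := finrank_perp R
    have h5 := Submodule.finrank_sup_add_finrank_inf_eq R (Fq g a Lv (Lv - 1 - q))
    omega
  unfold deg2
  rw [Finset.sum_congr rfl key, Finset.sum_add_distrib, Finset.sum_sub_distrib (s := Finset.range Lv)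
      (fun q => (finrank ℂ (Fq g a Lv q) : ℤ)),
    Finset.sum_range_reflect (fun q => (finrank ℂ (Fq g a Lv q) : ℤ)) Lv, sub_self, add_zero,
    Finset.sum_range_reflect
      (fun q => 2 * (finrank ℂ ↥(R ⊓ Fq g a Lv q) : ℤ) - (finrank ℂ R : ℤ)) Lv]

/-- termwise: `(R ⊓ F) ⊔ (R' ⊓ F) ≤ (R ⊔ R') ⊓ F`, `Submodule.finrank_sup_add_finrank_inf_eq`. -/
theorem deg2_super (g : Matrix (L n) (L n) ℂ) (a : Wt n) (Lv : ℕ) (R R' : Submodule ℂ (L n → ℂ)) :
    deg2 g a Lv R + deg2 g a Lv R' ≤ deg2 g a Lv (R ⊓ R') + deg2 g a Lv (R ⊔ R') := by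
  unfold deg2
  rw [← Finset.sum_add_distrib, ← Finset.sum_add_distrib]
  refine Finset.sum_le_sum fun q _ => ?_
  set F := Fq g a Lv q
  have h1 := Submodule.finrank_sup_add_finrank_inf_eq R R'
  have h2 := Submodule.finrank_sup_add_finrank_inf_eq (R ⊓ F) (R' ⊓ F)
  have h3 : (R ⊓ F) ⊓ (R' ⊓ F) = (R ⊓ R') ⊓ F := (inf_inf_distrib_right R R' F).symm
  have h4 : (R ⊓ F) ⊔ (R' ⊓ F) ≤ (R ⊔ R') ⊓ F :=
    sup_le (inf_le_inf_right _ le_sup_left) (inf_le_inf_right _ le_sup_right)
  have h5 := Submodule.finrank_mono h4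
  rw [h3] at h2
  omega

/-- `R' = perp R`; `R ⊔ perp R = perp (R ⊓ perp R)`. -/
theorem deg2_le_rad {g : Matrix (L n) (L n) ℂ} (hg : Orth g) {a : Wt n} {Lv : ℕ} (hL : Fit a Lv) (R : Submodule ℂ (L n → ℂ)) :
    deg2 g a Lv R ≤ deg2 g a Lv (R ⊓ perp R) := by
  have h1 := deg2_super g a Lv R (perp R)
  have h2 := deg2_perp hg hL R
  have h3 := deg2_perp hg hL (R ⊔ perp R)
  rw [perp_sup, perp_perp, inf_comm] at h3
  omega

end Crest.Agent.R172.HM
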