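import Crest.Agent.R172.HM.Ech

/-! R172/HM/XR (architect helper44) -/

set_option autoImplicit false
set_option linter.unusedVariables false
open Matrix Sum Module Crest.AlgebraR.SpinSaturation Crest.Agent.R172.W

noncomputable section
namespace Crest.Agent.R172.HM
variable {n : ℕ}

theorem xra_mulVec (π : Matrix (L n) (L n) ℂ) (w : L n → ℂ) (p : L n) :
    ((Matrix.of fun p q : L n => π p q - π q.swap p.swap) *ᵥ w) p = (π *ᵥ w) p - bf (π *ᵥ Pi.single p.swap 1) w := by
  simp only [mulVec, dotProduct, of_apply, sub_mul, Finset.sum_sub_distrib, bf]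
  congr 1
  rw [← Equiv.sum_comp (Equiv.sumComm (Fin n) (Fin n))]
  refine Finset.sum_congr rfl fun q _ => ?_
  simp [Pi.single_apply]

/-- `π` of `exists_proj` for `pos` of `exists_pos`; `z p q = π p q - π q.swap p.swap`.  The second part sends `w` to the vector
`p ↦ bf (column p.swap of π) w`, which vanishes for `w ∈ perp R` (`bf` is symmetric).  `Up`: triangularity, and `z (inr i) (inl i) = 0`.
`2 chi a z = ∑ p, sw a p * π p p`; expand `sw a p` by `sum_level`, swap the sums, use the trace formula for `S = {p | 2 q < Lv + sw a p}` and `S = univ`. -/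
theorem exists_z {a : Wt n} (ha : IsDominantIntegral n a) {Lv : ℕ} (hL : Fit a Lv) (R : Submodule ℂ (L n → ℂ)) (hR : R ≤ perp R) :
    ∃ z : soD n, Up z ∧ InX z R ∧ 2 * chi a z = (deg2 1 a Lv R : ℂ) := by
  classical
  obtain ⟨pos, hinj, hsw, hmono, hl, hr⟩ := exists_pos ha
  obtain ⟨π, h1, h2, h3, h4⟩ := exists_proj pos hinj R
  have hz : ∀ w ∈ perp R, (Matrix.of fun p q : L n => π p q - π q.swap p.swap) *ᵥ w = π *ᵥ w := fun w hw => by
    funext p
    rw [xra_mulVec, mem_perp.1 hw _ (h1 _), sub_zero]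
  refine ⟨⟨Matrix.of fun p q : L n => π p q - π q.swap p.swap, mem_typeD.2 fun p q => by simp⟩, ⟨fun i j => ?_, fun i j hij => ?_⟩,
    ⟨fun r hr => ?_, fun w hw => ?_⟩, ?_⟩
  · show π (inr i) (inl j) - π (inr j) (inl i) = 0
    by_cases hij : i = j
    · subst hij; exact sub_self _
    · rw [h3 _ _ (hr i j hij), h3 _ _ (hr j i (Ne.symm hij)), sub_zero]
  · show π (inl i) (inl j) - π (inr j) (inr i) = 0
    have e1 := hsw (inl i)
    have e2 := hsw (inl j)
    have e3 := hl i j hij
    simp only [Sum.swap_inl] at e1 e2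
    rw [h3 _ _ e3, h3 (inr j) (inr i) (by omega), sub_zero]
  · exact (hz r (hR hr)).trans (h2 r hr)
  · show (Matrix.of fun p q : L n => π p q - π q.swap p.swap) *ᵥ w ∈ R
    rw [hz w hw]; exact h1 w
  · have e1 : 2 * chi a ⟨Matrix.of fun p q : L n => π p q - π q.swap p.swap, mem_typeD.2 fun p q => by simp⟩ =
        ∑ p, (sw a p : ℂ) * π p p := by
      simp only [chi, Fintype.sum_sum_type, sw, Sum.elim_inl, Sum.elim_inr, of_apply, Sum.swap_inl, Finset.mul_sum,
        ← Finset.sum_add_distrib]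
      refine Finset.sum_congr rfl fun i _ => ?_
      push_cast
      ring
    have e2 : ∀ p, (sw a p : ℂ) = ∑ q ∈ Finset.range Lv, ((if 2 * (q : ℤ) < Lv + sw a p then 2 else 0) - 1 : ℂ) := by
      intro p
      have hp : |sw a p| ≤ Lv ∧ Even ((Lv : ℤ) + sw a p) := by
        rcases p with i | i
        · exact hL i
        · obtain ⟨k1, k, hk⟩ := hL i
          refine ⟨by simpa [sw] using k1, ⟨k - a i, ?_⟩⟩
          simp only [sw, Sum.elim_inr]
          omega
      conv_lhs => rw [← sum_level Lv (sw a p) hp.1 hp.2]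
      push_cast
      rfl
    have e3 : ∑ p, π p p = (finrank ℂ R : ℂ) := by
      have : R ⊓ cs ((Finset.univ : Finset (L n)) : Set (L n)) = R :=
        inf_eq_left.2 fun v _ => mem_cs.2 fun p hp => absurd (by simp) hp
      rw [h4 Finset.univ (fun _ _ _ _ => Finset.mem_univ _), this]
    rw [e1, deg2]
    simp only [e2, Finset.sum_mul]
    rw [Finset.sum_comm]
    push_cast
    refine Finset.sum_congr rfl fun q _ => ?_
    have e4 : Fq 1 a Lv q = cs ((Finset.univ.filter fun p => 2 * (q : ℤ) < Lv + sw a p : Finset (L n)) : Set (L n)) := by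
      rw [Fq, Matrix.mulVecLin_one, Submodule.map_id]
      congr 1
      ext p
      simp
    rw [e4, ← h4 _ (fun p p' hp h => by
      simp only [Finset.mem_filter, Finset.mem_univ, true_and] at h ⊢
      have := hmono p p' hp
      omega), ← e3, Finset.sum_filter, Finset.mul_sum, ← Finset.sum_sub_distrib]
    refine Finset.sum_congr rfl fun p _ => ?_
    split_ifs <;> ring

theorem xrb_bij {g : Matrix (L n) (L n) ℂ} (hg : IsUnit g) : Function.Bijective g.mulVecLin :=
  ⟨Matrix.mulVec_injective_iff_isUnit.2 hg, Matrix.mulVec_surjective_iff_isUnit.2 hg⟩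

theorem xrb_finrank {g : Matrix (L n) (L n) ℂ} (hg : IsUnit g) (S : Submodule ℂ (L n → ℂ)) :
    finrank ℂ ↥(S.comap g.mulVecLin) = finrank ℂ S := by
  have h1 : (S.comap g.mulVecLin).map g.mulVecLin = S :=
    Submodule.map_comap_eq_of_surjective (xrb_bij hg).2 S
  have h2 := (Submodule.equivMapOfInjective g.mulVecLin (xrb_bij hg).1 (S.comap g.mulVecLin)).finrank_eq
  rw [h1] at h2
  exact h2

/-- transport along `g`: `R0 = R.comap g.mulVecLin`; `(R0 ⊓ F).map g = R ⊓ F.map g`, `g` bijective. -/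
theorem deg2_comap {g : Matrix (L n) (L n) ℂ} (hg : Orth g) (a : Wt n) (Lv : ℕ) (R : Submodule ℂ (L n → ℂ)) :
    deg2 1 a Lv (R.comap g.mulVecLin) = deg2 g a Lv R := by
  unfold deg2
  refine Finset.sum_congr rfl fun q _ => ?_
  have h1 : R.comap g.mulVecLin ⊓ Fq 1 a Lv q = (R ⊓ Fq g a Lv q).comap g.mulVecLin := by
    rw [Submodule.comap_inf]
    congr 1
    unfold Fq
    rw [Submodule.comap_map_eq_of_injective (xrb_bij hg.1).1, Matrix.mulVecLin_one, Submodule.map_id]
  rw [h1, xrb_finrank hg.1, xrb_finrank hg.1]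

theorem iso_comap {g : Matrix (L n) (L n) ℂ} (hg : Orth g) {R : Submodule ℂ (L n → ℂ)} (hR : R ≤ perp R) :
    R.comap g.mulVecLin ≤ perp (R.comap g.mulVecLin) := by
  intro w hw
  rw [mem_perp]
  intro r hr
  rw [← hg.2]
  exact (mem_perp.1 (hR hw)) _ hr

theorem inX_conj {g : Matrix (L n) (L n) ℂ} (hg : Orth g) {R : Submodule ℂ (L n → ℂ)} {z z' : soD n}
    (h : (z' : Matrix (L n) (L n) ℂ) * g = g * (z : Matrix (L n) (L n) ℂ)) (hz : InX z (R.comap g.mulVecLin)) : InX z' R := by
  have key : ∀ v, (z' : Matrix (L n) (L n) ℂ) *ᵥ (g *ᵥ v) = g *ᵥ ((z : Matrix (L n) (L n) ℂ) *ᵥ v) := by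
    intro v
    rw [Matrix.mulVec_mulVec, Matrix.mulVec_mulVec, h]
  constructor
  · intro r hr
    obtain ⟨v, rfl⟩ := (xrb_bij hg.1).2 r
    have hv := hz.1 v hr
    show (z' : Matrix (L n) (L n) ℂ) *ᵥ (g *ᵥ v) = g *ᵥ v
    rw [key, hv]
  · intro w hw
    obtain ⟨v, rfl⟩ := (xrb_bij hg.1).2 w
    have hv : v ∈ perp (R.comap g.mulVecLin) := by
      rw [mem_perp]
      intro r hr
      rw [← hg.2]
      exact (mem_perp.1 hw) _ hr
    have := hz.2 v hv
    show (z' : Matrix (L n) (L n) ℂ) *ᵥ (g *ᵥ v) ∈ R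
    rw [key]
    exact this

end Crest.Agent.R172.HM
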