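import Crest.Agent.R172.HM.DualB
import Crest.Agent.R172.HM.Span
import Crest.Agent.R172.HM.Lin
import Crest.Agent.R172.HM.XR
import Crest.Agent.R172.HM.Sup

/-! R172/HM/Main (architect helper44) -/

set_option autoImplicit false
set_option linter.unusedVariables false
open Matrix Sum Module Crest.AlgebraR.SpinSaturation Crest.Agent.R172.W

noncomputable section
namespace Crest.Agent.R172.HM
variable {n : ℕ}

theorem chi_nsmul (a : Wt n) (N : ℕ) (z : soD n) : chi (N • a) z = N * chi a z := by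
  unfold chi
  rw [Finset.mul_sum]
  refine Finset.sum_congr rfl fun i _ => ?_
  simp only [Pi.smul_apply, nsmul_eq_mul]
  push_cast
  ring

theorem main_one {a : Wt n} (ha : IsDominantIntegral n a) (N : ℕ) (H : HWR n (N • a)) {σ : Type}
    (u : List ((L n × L n) × σ)) (r : Roots u) (t : σ → ℂ) {Lv : ℕ} (f : Fit a Lv) (R : Submodule ℂ (L n → ℂ)) (hR : R ≤ perp R) :
    ∃ z : soD n, InX z R ∧ H.ρ z (H.act u t H.v) = (((N : ℝ) * (deg2 (gw u t) a Lv R : ℝ) / 2 : ℝ) : ℂ) • H.act u t H.v := by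
  have ho := gw_orth u r t
  obtain ⟨z, hU, hX, hc⟩ := exists_z ha f (R.comap (gw u t).mulVecLin) (iso_comap ho hR)
  obtain ⟨z', h1, h2⟩ := H.conj u r t z
  refine ⟨z', inX_conj ho h1 hX, ?_⟩
  have e := LinearMap.congr_fun h2 H.v
  simp only [Module.End.mul_apply] at e
  rw [e, H.hw z hU, map_smul, chi_nsmul]
  congr 1
  rw [deg2_comap ho] at hc
  push_cast
  rw [← hc]
  ring

theorem main_up {a : Wt n} (H : HWR n a) {R : Submodule ℂ (L n → ℂ)} (hR : R ≤ perp R) {z z' : soD n} (h : InX z R) (h' : InX z' R)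
    (x : H.E) (c : ℝ) (hx : H.ρ z' x = (c : ℂ) • x) : x ∈ upE (H.ρ z) c := by
  obtain ⟨y1, y2, e, e1, e2⟩ := inX_split hR h h'
  have := mem_upE (H.ρ z) (H.ρ y1) (H.ρ y2) (by rw [← H.lie, e1]) (by rw [← H.lie, e2, map_smul]) x c
    (by rw [← map_add, ← map_add, ← e, hx])
  simpa using this

theorem iso_le {a b c : Wt n} (ha : IsDominantIntegral n a) (hb : IsDominantIntegral n b) (hc : IsDominantIntegral n c) {N : ℕ} (hN : 1 ≤ N)
    (H1 : HWR n (N • a)) (H2 : HWR n (N • b)) (H3 : HWR n (N • c)) (B : H1.E →ₗ[ℂ] H2.E →ₗ[ℂ] H3.E →ₗ[ℂ] ℂ) (hB : InvB H1 H2 H3 B)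
    {σ : Type} (u1 u2 u3 : List ((L n × L n) × σ)) (r1 : Roots u1) (r2 : Roots u2) (r3 : Roots u3) (t : σ → ℂ)
    (h0 : B (H1.act u1 t H1.v) (H2.act u2 t H2.v) (H3.act u3 t H3.v) ≠ 0)
    {L1 L2 L3 : ℕ} (f1 : Fit a L1) (f2 : Fit b L2) (f3 : Fit c L3) (R : Submodule ℂ (L n → ℂ)) (hR : R ≤ perp R) :
    deg2 (gw u1 t) a L1 R + deg2 (gw u2 t) b L2 R + deg2 (gw u3 t) c L3 R ≤ 0 := by
  by_contra hlt
  rw [not_le] at hlt
  obtain ⟨z1, x1, e1⟩ := main_one ha N H1 u1 r1 t f1 R hR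
  obtain ⟨z2, x2, e2⟩ := main_one hb N H2 u2 r2 t f2 R hR
  obtain ⟨z3, x3, e3⟩ := main_one hc N H3 u3 r3 t f3 R hR
  refine h0 (tri_up (H1.ρ z1) (H2.ρ z1) (H3.ρ z1) B (hB z1) _ _ _ ?_ _ _ _ (main_up H1 hR x1 x1 _ _ e1)
    (main_up H2 hR x1 x2 _ _ e2) (main_up H3 hR x1 x3 _ _ e3))
  have h1 : (0 : ℝ) < N := by exact_mod_cast hN
  have h2 : (0 : ℝ) < (deg2 (gw u1 t) a L1 R : ℝ) + (deg2 (gw u2 t) b L2 R : ℝ) + (deg2 (gw u3 t) c L3 R : ℝ) := by exact_mod_cast hlt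
  have := mul_pos h1 h2
  linarith

theorem main_tri {E1 E2 E3 : Type*} [AddCommGroup E1] [Module ℂ E1] [AddCommGroup E2] [Module ℂ E2] [AddCommGroup E3] [Module ℂ E3]
    (B : E1 →ₗ[ℂ] E2 →ₗ[ℂ] E3 →ₗ[ℂ] ℂ) (hB : B ≠ 0) (S1 : Set E1) (S2 : Set E2) (S3 : Set E3) (h1 : Submodule.span ℂ S1 = ⊤)
    (h2 : Submodule.span ℂ S2 = ⊤) (h3 : Submodule.span ℂ S3 = ⊤) : ∃ x1 ∈ S1, ∃ x2 ∈ S2, ∃ x3 ∈ S3, B x1 x2 x3 ≠ 0 := by
  by_contra h
  push Not at h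
  exact hB (LinearMap.ext_on h1 fun x1 m1 => LinearMap.ext_on h2 fun x2 m2 => LinearMap.ext_on h3 fun x3 m3 => h x1 m1 x2 m2 x3 m3)

/-- **S_HM, model-free form.** -/
theorem s_hm0 (hn : 2 ≤ n) {a b c : Wt n} (ha : IsDominantIntegral n a) (hb : IsDominantIntegral n b) (hc : IsDominantIntegral n c)
    {N : ℕ} (hN : 1 ≤ N) (U : Irrep n (N • a)) (V : Irrep n (N • b)) (W : Irrep n (N • c)) (h : HasInvariant U V W) :
    ∃ l1 l2 l3 : List (L n × L n), (∀ x ∈ l1 ++ l2 ++ l3, x.1 ≠ x.2) ∧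
      ∀ (σ : Type) (u1 u2 u3 : List ((L n × L n) × σ)), Roots u1 → Roots u2 → Roots u3 →
        ((u1 ++ u2 ++ u3).map Prod.snd).Nodup → l1.Sublist (u1.map Prod.fst) → l2.Sublist (u2.map Prod.fst) →
        l3.Sublist (u3.map Prod.fst) → ∃ f : MvPolynomial σ ℂ, f ≠ 0 ∧ ∀ t, MvPolynomial.eval t f ≠ 0 →
          ∀ L1 L2 L3, Fit a L1 → Fit b L2 → Fit c L3 → SS (gw u1 t) (gw u2 t) (gw u3 t) a b c L1 L2 L3 := by
  classical
  obtain ⟨H1, H2, H3, B, hB0, hB⟩ := exists_B U V W h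
  obtain ⟨_, ⟨w1, q1, rfl⟩, _, ⟨w2, q2, rfl⟩, _, ⟨w3, q3, rfl⟩, hne⟩ :=
    main_tri B hB0 _ _ _ (H1.span_act hn) (H2.span_act hn) (H3.span_act hn)
  refine ⟨w1.map Prod.fst, w2.map Prod.fst, w3.map Prod.fst, ?_, ?_⟩
  · intro x hx
    simp only [List.mem_append, List.mem_map] at hx
    rcases hx with (⟨y, hy, rfl⟩ | ⟨y, hy, rfl⟩) | ⟨y, hy, rfl⟩
    exacts [q1 y hy, q2 y hy, q3 y hy]
  intro σ u1 u2 u3 r1 r2 r3 hd s1 s2 s3
  obtain ⟨f, hf⟩ := tri_poly B (fun t => H1.act u1 t H1.v) (fun t => H2.act u2 t H2.v) (fun t => H3.act u3 t H3.v)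
    (fun φ => H1.act_poly u1 r1 φ _) (fun φ => H2.act_poly u2 r2 φ _) (fun φ => H3.act_poly u3 r3 φ _)
  simp only [List.map_append, List.nodup_append, List.mem_append] at hd
  obtain ⟨⟨d1, d2, d12⟩, d3, d123⟩ := hd
  obtain ⟨t1, p1⟩ := H1.act_sub u1 d1 w1 s1
  obtain ⟨t2, p2⟩ := H2.act_sub u2 d2 w2 s2
  obtain ⟨t3, p3⟩ := H3.act_sub u3 d3 w3 s3
  refine ⟨f, fun h0 => hne ?_, fun t ht L1 L2 L3 f1 f2 f3 R => ?_⟩
  · let t : σ → ℂ := fun j => if j ∈ u1.map Prod.snd then t1 j else if j ∈ u2.map Prod.snd then t2 j else t3 j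
    have e := hf t
    rw [h0, map_zero, p1 t fun j hj => if_pos hj,
      p2 t fun j hj => by
        have : j ∉ u1.map Prod.snd := fun h1 => d12 j h1 j hj rfl
        simp only [t]; rw [if_neg this, if_pos hj],
      p3 t fun j hj => by
        have h1 : j ∉ u1.map Prod.snd := fun h1 => d123 j (Or.inl h1) j hj rfl
        have h2 : j ∉ u2.map Prod.snd := fun h1 => d123 j (Or.inr h1) j hj rfl
        simp only [t]; rw [if_neg h1, if_neg h2]] at e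
    exact e
  · have hR : R ⊓ perp R ≤ perp (R ⊓ perp R) := fun x hx r hr => by
      rw [bf_comm]; exact hr.2 x hx.1
    have := iso_le ha hb hc hN H1 H2 H3 B hB u1 u2 u3 r1 r2 r3 t (by rw [hf t]; exact ht) f1 f2 f3 _ hR
    have a1 := deg2_le_rad (gw_orth u1 r1 t) f1 R
    have a2 := deg2_le_rad (gw_orth u2 r2 t) f2 R
    have a3 := deg2_le_rad (gw_orth u3 r3 t) f3 R
    linarith

end Crest.Agent.R172.HM
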